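import Vale.Agent.P170.Limit

open Finset Filter Topology

namespace Vale.Agent.P170

/-! first moment bound -/

lemma bb_singleton (n : ℕ) (hn : 1 ≤ n) (σ : Fin n → Bool) : bb (lit n) {σ} = 1 / 2 := by
  have hn0 : (0 : ℝ) < n := Nat.cast_pos.2 hn
  unfold bb
  rw [Fintype.sum_prod_type]
  have e : ∀ x : Fin n, ∑ b : Bool, (1 - ne ({σ} ∩ lit n (x, b))) = 1 := by
    intro x
    have h1 : ∀ b, σ x = b → ne ({σ} ∩ lit n (x, b)) = 1 := fun b hb =>
      ne_of_nonempty ⟨σ, rfl, hb⟩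
    have h2 : ∀ b, σ x ≠ b → ne ({σ} ∩ lit n (x, b)) = 0 := fun b hb => by
      have : {σ} ∩ lit n (x, b) = ∅ := Set.singleton_inter_eq_empty.2 hb
      rw [this, ne_empty]
    rw [Fintype.sum_bool]
    cases h : σ x
    · rw [h1 false h, h2 true (by simp [h])]; norm_num
    · rw [h1 true h, h2 false (by simp [h])]; norm_num
  simp only [e, Finset.sum_const, Finset.card_univ, Fintype.card_prod, Fintype.card_fin,
    Fintype.card_bool, nsmul_eq_mul]
  push_cast
  field_simp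

lemma first_moment (k n m : ℕ) (hn : 1 ≤ n) : pw k n m ≤ 2 ^ n * (1 - (1 / 2) ^ k) ^ m := by
  haveI : Nonempty (Fin n) := ⟨⟨0, hn⟩⟩
  have hq : (0 : ℝ) ≤ 1 - (1 / 2) ^ k := sub_nonneg.2 (pow_le_one₀ (by norm_num) (by norm_num))
  have h1 : ∀ (σ : Fin n → Bool) (t : ℕ), ∀ S ⊆ {σ},
      (U (cl k (lit n)) ^ t) ne S ≤ (1 - (1 / 2) ^ k) ^ t * ne S := by
    intro σ t
    induction t with
    | zero => simp
    | succ t ih =>
      intro S hS
      rw [pow_succ', Module.End.mul_apply]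
      refine ((Loc_U _).mono fun S' h => ih S' (h.trans hS)).trans ?_
      have e := congrFun ((U (cl k (lit n))).map_smul ((1 - (1 / 2 : ℝ) ^ k) ^ t) ne) S
      refine (le_of_eq e).trans ?_
      rw [Pi.smul_apply, smul_eq_mul, U_cl_ne, pow_succ, mul_assoc]
      refine mul_le_mul_of_nonneg_left ?_ (by positivity)
      rcases Set.subset_singleton_iff_eq.1 hS with rfl | rfl
      · simp [bb_empty, ne_empty]
      · rw [bb_singleton n hn, ne_of_nonempty (Set.singleton_nonempty σ), mul_one]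
  have h2 : ∀ S : Set (Fin n → Bool), ne S ≤ (∑ σ, fun S' => ne (S' ∩ {σ})) S := by
    intro S
    rw [Finset.sum_apply]
    by_cases h : S.Nonempty
    · obtain ⟨σ, hσ⟩ := h
      rw [ne_of_nonempty ⟨σ, hσ⟩]
      refine le_trans (le_of_eq (ne_of_nonempty (S := S ∩ {σ}) ⟨σ, hσ, rfl⟩).symm)
        (Finset.single_le_sum (f := fun σ => ne (S ∩ {σ})) (fun _ _ => ne_nonneg _) (Finset.mem_univ σ))
    · rw [Set.not_nonempty_iff_eq_empty.1 h, ne_empty]
      exact Finset.sum_nonneg fun _ _ => ne_nonneg _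
  refine (((Loc_U _).pow m).mono fun S _ => h2 S).trans ?_
  rw [map_sum, Finset.sum_apply]
  calc _ ≤ ∑ _σ : Fin n → Bool, (1 - (1 / 2 : ℝ) ^ k) ^ m := by
        refine Finset.sum_le_sum fun σ _ => ?_
        rw [← U_pow_inter]
        refine (h1 σ m _ Set.inter_subset_right).trans ?_
        exact mul_le_of_le_one_right (by positivity) (ne_le_one _)
    _ = _ := by simp

lemma pw_le_geom (k n m : ℕ) (hn : 1 ≤ n) (hm : 2 ^ k * n ≤ m) : pw k n m ≤ (2 / Real.exp 1) ^ n := by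
  refine (pw_antitone k hn hm).trans ((first_moment k n _ hn).trans ?_)
  have hq : (0 : ℝ) ≤ 1 - (1 / 2) ^ k := sub_nonneg.2 (pow_le_one₀ (by norm_num) (by norm_num))
  have h1 : (1 - (1 / 2 : ℝ) ^ k) ≤ Real.exp (-(1 / 2) ^ k) := by
    linarith [Real.add_one_le_exp (-(1 / 2 : ℝ) ^ k)]
  have h2 : (1 - (1 / 2 : ℝ) ^ k) ^ (2 ^ k) ≤ 1 / Real.exp 1 := by
    refine (pow_le_pow_left₀ hq h1 _).trans (le_of_eq ?_)
    rw [← Real.exp_nat_mul, one_div (Real.exp 1), ← Real.exp_neg]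
    congr 1
    push_cast
    rw [mul_neg, ← mul_pow]; norm_num
  rw [pow_mul, ← mul_pow]
  refine pow_le_pow_left₀ (by positivity) ?_ n
  rw [div_eq_mul_one_div 2]
  linarith

/-! lower bound through Hall's theorem -/

lemma hall_point (k n m : ℕ) (hmn : m ≤ n) (F : Fin m → Fin k → Fin n × Bool) :
    1 - ne (Set.univ ∩ ⋂ j, cl k (lit n) (F j)) ≤ ∑ s ∈ range m,
      ∑ J ∈ powersetCard (s + 1) (univ : Finset (Fin m)),
        ∑ W ∈ powersetCard (s + 1) (univ : Finset (Fin n)),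
          ∏ j, (if j ∈ J then ∏ i, (if (F j i).1 ∈ W then (1 : ℝ) else 0) else 1) := by
  have hnn : ∀ (J : Finset (Fin m)) (W : Finset (Fin n)),
      0 ≤ ∏ j, (if j ∈ J then ∏ i, (if (F j i).1 ∈ W then (1 : ℝ) else 0) else 1) := by
    intro J W
    refine Finset.prod_nonneg fun j _ => ?_
    split_ifs
    · exact Finset.prod_nonneg fun i _ => by split_ifs <;> norm_num
    · norm_num
  by_cases h : ∀ J : Finset (Fin m), #J ≤ #(J.biUnion fun j => univ.image fun i => (F j i).1)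
  · obtain ⟨f, hf, hf'⟩ := (Finset.all_card_le_biUnion_card_iff_exists_injective _).1 h
    have hg : ∀ j, ∃ i, (F j i).1 = f j := fun j => by simpa using hf' j
    choose g hg using hg
    have : (Set.univ ∩ ⋂ j, cl k (lit n) (F j)).Nonempty := by
      refine ⟨Function.extend f (fun j => (F j (g j)).2) (fun _ => true), trivial, ?_⟩
      refine Set.mem_iInter.2 fun j => Set.mem_iUnion.2 ⟨g j, ?_⟩
      show Function.extend f _ _ (F j (g j)).1 = _
      rw [hg, hf.extend_apply]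
    rw [ne_of_nonempty this, sub_self]
    exact Finset.sum_nonneg fun _ _ => Finset.sum_nonneg fun _ _ => Finset.sum_nonneg fun _ _ => hnn _ _
  · push Not at h
    obtain ⟨J, hJ⟩ := h
    have hJm : #J ≤ m := by simpa using Finset.card_le_univ J
    obtain ⟨W, hW1, -, hW2⟩ := Finset.exists_subsuperset_card_eq
      (Finset.subset_univ (J.biUnion fun j => univ.image fun i => (F j i).1)) hJ.le
      (by simpa using hJm.trans hmn)
    have e : ∏ j, (if j ∈ J then ∏ i, (if (F j i).1 ∈ W then (1 : ℝ) else 0) else 1) = 1 := by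
      refine Finset.prod_eq_one fun j _ => ?_
      split_ifs with hj
      · refine Finset.prod_eq_one fun i _ => if_pos (hW1 ?_)
        exact Finset.mem_biUnion.2 ⟨j, hj, Finset.mem_image.2 ⟨i, Finset.mem_univ _, rfl⟩⟩
      · rfl
    have h1 : (1 : ℝ) - ne (Set.univ ∩ ⋂ j, cl k (lit n) (F j)) ≤ 1 := by
      linarith [ne_nonneg (Set.univ ∩ ⋂ j, cl k (lit n) (F j))]
    refine h1.trans ?_
    refine le_trans ?_ (Finset.single_le_sum (fun _ _ => Finset.sum_nonneg fun _ _ =>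
      Finset.sum_nonneg fun _ _ => hnn _ _) (Finset.mem_range.2 (show #J - 1 < m by omega)))
    have e1 : #J - 1 + 1 = #J := by omega
    rw [e1]
    refine le_trans ?_ (Finset.single_le_sum (fun _ _ => Finset.sum_nonneg fun _ _ => hnn _ _)
      (Finset.mem_powersetCard.2 ⟨Finset.subset_univ J, rfl⟩))
    refine le_trans ?_ (Finset.single_le_sum (fun _ _ => hnn _ _)
      (Finset.mem_powersetCard.2 ⟨Finset.subset_univ W, hW2⟩))
    exact e.ge

lemma hall_sum (k n m : ℕ) (hn : 1 ≤ n) (J : Finset (Fin m)) (W : Finset (Fin n)) :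
    ∑ F : Fin m → Fin k → Fin n × Bool,
      ∏ j, (if j ∈ J then ∏ i, (if (F j i).1 ∈ W then (1 : ℝ) else 0) else 1)
      = ((#W / n : ℝ) ^ k) ^ #J * (Fintype.card (Fin k → Fin n × Bool) : ℝ) ^ m := by
  have hn0 : (0 : ℝ) < n := Nat.cast_pos.2 hn
  have h := Finset.prod_univ_sum (R := ℝ) (fun _ : Fin m => (univ : Finset (Fin k → Fin n × Bool)))
    (fun j C => if j ∈ J then ∏ i, (if (C i).1 ∈ W then (1 : ℝ) else 0) else 1)
  rw [Fintype.piFinset_univ] at h
  rw [← h]
  have e : ∀ j, ∑ C : Fin k → Fin n × Bool,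
      (if j ∈ J then ∏ i, (if (C i).1 ∈ W then (1 : ℝ) else 0) else 1)
      = (if j ∈ J then (#W / n : ℝ) ^ k else 1) * Fintype.card (Fin k → Fin n × Bool) := by
    intro j
    split_ifs
    · rw [← Fintype.sum_pow (f := fun l : Fin n × Bool => if l.1 ∈ W then (1 : ℝ) else 0) k]
      have : ∑ l : Fin n × Bool, (if l.1 ∈ W then (1 : ℝ) else 0) = 2 * #W := by
        rw [Fintype.sum_prod_type_right]
        simp
      rw [this]
      simp only [Fintype.card_pi, Fintype.card_prod, Fintype.card_fin, Fintype.card_bool,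
        Finset.prod_const, Finset.card_univ]
      push_cast
      rw [← mul_pow]
      congr 1
      field_simp
    · simp
  simp only [e, Finset.prod_mul_distrib, Finset.prod_const, Finset.card_univ, Fintype.card_fin]
  congr 1
  rw [Finset.prod_ite_mem, Finset.univ_inter, Finset.prod_const]

lemma hall_term (k n m s : ℕ) (hk : 3 ≤ k) (hn : 1 ≤ n) (hm : 30 * m ≤ n) (hs : 1 ≤ s) (hsm : s ≤ m) :
    (m.choose s : ℝ) * (n.choose s * ((s / n : ℝ) ^ k) ^ s) ≤ (1 / 4) ^ s := by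
  have hn0 : (0 : ℝ) < n := Nat.cast_pos.2 hn
  have hs0 : (0 : ℝ) < s := Nat.cast_pos.2 hs
  have hsn : (s : ℝ) ≤ n := by exact_mod_cast (by omega : s ≤ n)
  have hm' : 30 * (m : ℝ) ≤ n := by exact_mod_cast hm
  have f1 : ∀ N : ℕ, (N.choose s : ℝ) ≤ (N * Real.exp 1 / s) ^ s := by
    intro N
    refine (Nat.choose_le_pow_div s N).trans ?_
    have := Real.pow_div_factorial_le_exp (s : ℝ) hs0.le s
    rw [div_le_iff₀ (by positivity)] at this
    rw [div_pow, mul_pow, ← Real.exp_nat_mul, mul_one, div_le_div_iff₀ (by positivity) (by positivity)]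
    have h0 : (0 : ℝ) ≤ (N : ℝ) ^ s := by positivity
    calc (N : ℝ) ^ s * s ^ s ≤ N ^ s * (Real.exp s * s.factorial) := by gcongr
      _ = _ := by ring
  have f2 : (s / n : ℝ) ^ k ≤ (s / n : ℝ) ^ 2 :=
    pow_le_pow_of_le_one (by positivity) ((div_le_one hn0).2 hsn) (by omega)
  calc _ ≤ (m * Real.exp 1 / s) ^ s * ((n * Real.exp 1 / s) ^ s * ((s / n : ℝ) ^ 2) ^ s) := by
        gcongr
        · exact f1 m
        · exact f1 n
    _ = (m / n * Real.exp 1 ^ 2) ^ s := by
        rw [← mul_pow, ← mul_pow]; congr 1; field_simp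
    _ ≤ _ := by
        refine pow_le_pow_left₀ (by positivity) ?_ s
        have h1 : (m / n : ℝ) ≤ 1 / 30 := by rw [div_le_iff₀ hn0]; linarith
        have h2 : Real.exp 1 ^ 2 ≤ 2.7182818286 ^ 2 :=
          pow_le_pow_left₀ (Real.exp_pos _).le Real.exp_one_lt_d9.le 2
        calc _ ≤ 1 / 30 * (2.7182818286 : ℝ) ^ 2 := by gcongr
          _ ≤ _ := by norm_num

lemma pw_ge_half (k n m : ℕ) (hk : 3 ≤ k) (hn : 1 ≤ n) (hm : 30 * m ≤ n) : 1 / 2 ≤ pw k n m := by
  haveI : Nonempty (Fin n) := ⟨⟨0, hn⟩⟩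
  have hc : (0 : ℝ) < (Fintype.card (Fin k → Fin n × Bool) : ℝ) ^ m :=
    pow_pos (Nat.cast_pos.2 Fintype.card_pos) m
  have h := Finset.sum_le_sum fun F (_ : F ∈ univ) => hall_point k n m (by omega) F
  rw [Finset.sum_comm] at h
  have h2 : ∀ s ∈ range m, ∑ F : Fin m → Fin k → Fin n × Bool,
      ∑ J ∈ powersetCard (s + 1) (univ : Finset (Fin m)),
        ∑ W ∈ powersetCard (s + 1) (univ : Finset (Fin n)),
          ∏ j, (if j ∈ J then ∏ i, (if (F j i).1 ∈ W then (1 : ℝ) else 0) else 1)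
      ≤ (1 / 4) ^ (s + 1) * (Fintype.card (Fin k → Fin n × Bool) : ℝ) ^ m := by
    intro s hs
    have hs' := Finset.mem_range.1 hs
    rw [Finset.sum_comm]
    refine le_trans (le_of_eq ?_) (mul_le_mul_of_nonneg_right
      (hall_term k n m (s + 1) hk hn hm (by omega) (by omega)) hc.le)
    rw [Finset.sum_congr rfl (g := fun _ => (n.choose (s + 1) * ((((s + 1 : ℕ) : ℝ) / n) ^ k) ^ (s + 1))
      * (Fintype.card (Fin k → Fin n × Bool) : ℝ) ^ m)]
    · simp only [Finset.sum_const, Finset.card_powersetCard, Finset.card_univ, Fintype.card_fin,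
        nsmul_eq_mul]
      ring
    · intro J hJ
      rw [Finset.sum_comm, Finset.sum_congr rfl (g := fun _ => ((((s + 1 : ℕ) : ℝ) / n) ^ k) ^ (s + 1)
        * (Fintype.card (Fin k → Fin n × Bool) : ℝ) ^ m)]
      · simp only [Finset.sum_const, Finset.card_powersetCard, Finset.card_univ, Fintype.card_fin,
          nsmul_eq_mul]
        ring
      · intro W hW
        rw [hall_sum k n m hn, (Finset.mem_powersetCard.1 hJ).2, (Finset.mem_powersetCard.1 hW).2]
  have h3 := h.trans (Finset.sum_le_sum h2)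
  rw [← Finset.sum_mul, Finset.sum_sub_distrib] at h3
  have h4 : ∀ r : ℕ, ∑ s ∈ range r, (1 / 4 : ℝ) ^ (s + 1) = 1 / 3 - 1 / 3 * (1 / 4) ^ r := by
    intro r
    induction r with
    | zero => simp
    | succ r ih => rw [Finset.sum_range_succ, ih]; ring
  have h5 : ∑ s ∈ range m, (1 / 4 : ℝ) ^ (s + 1) ≤ 1 / 2 := by
    rw [h4]
    have : (0 : ℝ) ≤ (1 / 4) ^ m := by positivity
    linarith
  have h6 : ∑ _F : Fin m → Fin k → Fin n × Bool, (1 : ℝ)
      = (Fintype.card (Fin k → Fin n × Bool) : ℝ) ^ m := by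
    rw [Finset.sum_const, Finset.card_univ, Fintype.card_pi, Finset.prod_const, Finset.card_univ,
      Fintype.card_fin]
    simp
  rw [h6] at h3
  rw [pw, U_pow_apply, le_div_iff₀ hc]
  nlinarith

lemma rho_ge (k n : ℕ) (hk : 3 ≤ k) (hn : 1 ≤ n) : 1 / 60 ≤ rho k n := by
  have hn0 : (0 : ℝ) < n := Nat.cast_pos.2 hn
  rw [rho, le_div_iff₀ hn0, mu]
  have h1 : n / 30 + 1 ≤ 2 ^ k * n := by
    have : 1 ≤ 2 ^ k := Nat.one_le_two_pow
    have : n ≤ 2 ^ k * n := Nat.le_mul_of_pos_left _ this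
    omega
  calc 1 / 60 * (n : ℝ) ≤ ∑ _t ∈ range (n / 30 + 1), (1 / 2 : ℝ) := by
        rw [Finset.sum_const, Finset.card_range, nsmul_eq_mul]
        have : (n : ℝ) ≤ ((30 * (n / 30 + 1) : ℕ) : ℝ) := Nat.cast_le.2 (by omega)
        push_cast at this ⊢
        linarith
    _ ≤ ∑ t ∈ range (n / 30 + 1), pw k n t := Finset.sum_le_sum fun t ht =>
        pw_ge_half k n t hk hn (by have := Finset.mem_range.1 ht; omega)
    _ ≤ _ := Finset.sum_le_sum_of_subset_of_nonneg (Finset.range_mono h1) fun _ _ _ => pw_nonneg _ _ _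

/-- the threshold in the with-replacement model -/
theorem threshold_wr (k : ℕ) (hk : 3 ≤ k) : ∃ α : ℝ, 0 < α ∧
    (∀ c : ℝ, 0 ≤ c → c < α → Tendsto (fun n : ℕ => pw k n ⌊c * n⌋₊) atTop (𝓝 1)) ∧
    (∀ c : ℝ, α < c → Tendsto (fun n : ℕ => pw k n ⌊c * n⌋₊) atTop (𝓝 0)) := by
  obtain ⟨α, hα⟩ := rho_tendsto k hk
  have hpos : 1 / 60 ≤ α := ge_of_tendsto hα (by
    filter_upwards [eventually_ge_atTop 1] with n hn using rho_ge k n hk hn)
  have key : ∀ ε : ℝ, 0 < ε → Tendsto (fun n => C0 k / ε ^ 2 / w n ^ 2) atTop (𝓝 0) := fun ε _ =>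
    tendsto_const_nhds.div_atTop ((tendsto_pow_atTop (by norm_num)).comp tendsto_w)
  have key2 : ∀ (ε x y : ℝ) (n : ℕ), 0 < ε → 1 ≤ n → 0 ≤ x → ε * n ≤ y → x * y ^ 2 ≤ C0 k * w n ^ 10 →
      x ≤ C0 k / ε ^ 2 / w n ^ 2 := by
    intro ε x y n hε hn hx hy h
    have hw := one_le_w hn
    have hn0 : (0 : ℝ) < n := Nat.cast_pos.2 hn
    have h1 : x * (ε * n) ^ 2 ≤ C0 k * w n ^ 10 := le_trans (by gcongr) h
    rw [← w_pow n] at h1
    rw [le_div_iff₀ (by positivity), le_div_iff₀ (by positivity)]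
    refine le_of_mul_le_mul_right ?_ (show 0 < w n ^ 10 by positivity)
    calc _ = x * (ε * w n ^ 6) ^ 2 := by ring
      _ ≤ _ := h1
  refine ⟨α, by linarith, fun c hc0 hc => ?_, fun c hc => ?_⟩
  · have h1 : Tendsto (fun n : ℕ => 1 - pw k n ⌊c * n⌋₊) atTop (𝓝 0) := by
      refine squeeze_zero' ?_ ?_ (key ((α - c) / 2) (by linarith))
      · filter_upwards [eventually_ge_atTop 1] with n hn using sub_nonneg.2 (pw_le_one k hn _)
      · filter_upwards [eventually_ge_atTop 1, hα.eventually (lt_mem_nhds (show (α + c) / 2 < α by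
          linarith))] with n hn hr
        have hn0 : (0 : ℝ) < n := Nat.cast_pos.2 hn
        rw [rho, lt_div_iff₀ hn0] at hr
        have hf : (⌊c * n⌋₊ : ℝ) ≤ c * n := Nat.floor_le (by positivity)
        have hg : 0 < (α - c) / 2 * n := mul_pos (by linarith) hn0
        refine key2 _ _ (mu k n - ⌊c * n⌋₊) n (by linarith) hn (sub_nonneg.2 (pw_le_one k hn _))
          (by linarith) (conc_lower k n _ hk hn (by linarith))
    simpa using h1.const_sub 1
  · by_cases hK : c < 2 ^ k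
    · refine squeeze_zero' (Eventually.of_forall fun n => pw_nonneg _ _ _) ?_
        (key ((c - α) / 4) (by linarith))
      have t2 : ∀ᶠ n : ℕ in atTop, 1 / (n : ℝ) < (c - α) / 4 :=
        (tendsto_const_nhds.div_atTop tendsto_natCast_atTop_atTop).eventually
          (gt_mem_nhds (by linarith))
      filter_upwards [eventually_ge_atTop 1, t2, hα.eventually (gt_mem_nhds (show α < (α + c) / 2 by
          linarith))] with n hn h1 hr
      have hn0 : (0 : ℝ) < n := Nat.cast_pos.2 hn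
      rw [rho, div_lt_iff₀ hn0] at hr
      rw [div_lt_iff₀ hn0] at h1
      have hf : (⌊c * n⌋₊ : ℝ) ≤ c * n := Nat.floor_le (mul_nonneg (by linarith) hn0.le)
      have hf' : c * n < ⌊c * n⌋₊ + 1 := Nat.lt_floor_add_one _
      refine key2 _ _ (⌊c * n⌋₊ - mu k n) n (by linarith) hn (pw_nonneg _ _ _)
          (by linarith) (conc_upper k n _ hk hn (by linarith) ?_)
      have : (⌊c * n⌋₊ : ℝ) < ((2 ^ k * n : ℕ) : ℝ) := by
        push_cast
        exact hf.trans_lt (mul_lt_mul_of_pos_right hK hn0)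
      exact_mod_cast this
    · push Not at hK
      refine squeeze_zero' (Eventually.of_forall fun n => pw_nonneg _ _ _) ?_
        (tendsto_pow_atTop_nhds_zero_of_lt_one (r := 2 / Real.exp 1) (by positivity) (by
          rw [div_lt_one (Real.exp_pos _)]; linarith [Real.exp_one_gt_d9]))
      filter_upwards [eventually_ge_atTop 1] with n hn
      refine pw_le_geom k n _ hn (Nat.le_floor ?_)
      push_cast
      gcongr

end Vale.Agent.P170
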