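import Vale.Agent.P170.Var

open Finset

namespace Vale.Agent.P170

variable {Ω : Type} {Λ : Type} [Fintype Λ]

/-- clauses as tuples of literals drawn with replacement -/
def cl (k : ℕ) (ℓ : Λ → Set Ω) : (Fin k → Λ) → Set Ω := fun C => ⋃ j, ℓ (C j)

/-- fraction of literals false on all of `S` -/
noncomputable def bb (ℓ : Λ → Set Ω) (S : Set Ω) : ℝ :=
  (∑ l, (1 - ne (S ∩ ℓ l))) / Fintype.card Λ

lemma bb_nonneg (ℓ : Λ → Set Ω) (S : Set Ω) : 0 ≤ bb ℓ S :=
  div_nonneg (Finset.sum_nonneg fun _ _ => sub_nonneg.2 (ne_le_one _)) (Nat.cast_nonneg _)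

lemma bb_eq [Nonempty Λ] (ℓ : Λ → Set Ω) (S : Set Ω) : bb ℓ S = 1 - U ℓ ne S := by
  have hc : (0 : ℝ) < Fintype.card Λ := Nat.cast_pos.2 Fintype.card_pos
  rw [bb, U_apply, Finset.sum_sub_distrib]
  simp only [Finset.sum_const, Finset.card_univ, nsmul_eq_mul]
  field_simp

lemma bb_le_one [Nonempty Λ] (ℓ : Λ → Set Ω) (S : Set Ω) : bb ℓ S ≤ 1 := by
  rw [bb_eq]
  have := Loc_U ℓ ne S fun S' _ => ne_nonneg S'
  linarith

lemma bb_empty [Nonempty Λ] (ℓ : Λ → Set Ω) : bb ℓ ∅ = 1 := by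
  rw [bb_eq, U_apply]; simp [ne_empty]

lemma one_sub_ne_cl (k : ℕ) (ℓ : Λ → Set Ω) (S : Set Ω) (C : Fin k → Λ) :
    1 - ne (S ∩ cl k ℓ C) = ∏ j, (1 - ne (S ∩ ℓ (C j))) := by
  by_cases h : (S ∩ cl k ℓ C).Nonempty
  · rw [ne_of_nonempty h, sub_self]
    obtain ⟨x, hx, hx'⟩ := h
    obtain ⟨j, hj⟩ := Set.mem_iUnion.1 hx'
    symm
    exact Finset.prod_eq_zero (Finset.mem_univ j) (by rw [ne_of_nonempty (show (S ∩ ℓ (C j)).Nonempty from ⟨x, hx, hj⟩), sub_self])
  · have h' := Set.not_nonempty_iff_eq_empty.1 h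
    rw [h', ne_empty, sub_zero]
    symm
    refine Finset.prod_eq_one fun j _ => ?_
    have : S ∩ ℓ (C j) = ∅ := by
      refine Set.eq_empty_of_subset_empty ?_
      rw [← h']
      exact Set.inter_subset_inter_right _ (Set.subset_iUnion (fun j => ℓ (C j)) j)
    rw [this, ne_empty, sub_zero]

lemma U_cl_ne [Nonempty Λ] (k : ℕ) (ℓ : Λ → Set Ω) (S : Set Ω) :
    U (cl k ℓ) ne S = 1 - bb ℓ S ^ k := by
  classical
  have hc : (0 : ℝ) < Fintype.card Λ := Nat.cast_pos.2 Fintype.card_pos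
  have h1 := bb_eq (cl k ℓ) S
  have h2 : bb (cl k ℓ) S = bb ℓ S ^ k := by
    rw [bb, bb, div_pow, Fintype.sum_pow]
    simp only [one_sub_ne_cl]
    simp
  linarith

lemma kill_cl [Nonempty Λ] (k : ℕ) (ℓ : Λ → Set Ω) (S : Set Ω) :
    kill (cl k ℓ) S = ne S * bb ℓ S ^ k := by
  rw [kill, U_cl_ne]
  by_cases h : S.Nonempty
  · rw [ne_of_nonempty h]; ring
  · rw [Set.not_nonempty_iff_eq_empty.1 h, ne_empty, bb_empty]; simp

lemma kill_mul_V_le_bb [Nonempty Λ] (k : ℕ) (hk : 1 ≤ k) (ℓ : Λ → Set Ω) (R : ℕ) (L : ℝ)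
    (hL : (R : ℝ) ≤ L ^ k) (hL0 : 0 ≤ L) (S : Set Ω) :
    kill (cl k ℓ) S * V (cl k ℓ) R S ≤ L * (ne S * bb ℓ S) := by
  have hb := bb_nonneg ℓ S
  by_cases h : S.Nonempty
  · by_cases h1 : L * bb ℓ S ≤ 1
    · have h2 := V_le (cl k ℓ) R S
      rw [kill_cl, ne_of_nonempty h] at *
      have h3 : (L * bb ℓ S) ^ k ≤ L * bb ℓ S := pow_le_of_le_one (by positivity) h1 (by omega)
      have h4 : 0 ≤ bb ℓ S ^ k := by positivity
      calc 1 * bb ℓ S ^ k * V (cl k ℓ) R S ≤ bb ℓ S ^ k * L ^ k := by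
            rw [one_mul]; exact mul_le_mul_of_nonneg_left (by linarith) h4
        _ = (L * bb ℓ S) ^ k := by ring
        _ ≤ _ := by linarith
    · have h2 := kill_mul_V_le (cl k ℓ) R S
      rw [ne_of_nonempty h] at *
      linarith
  · have h2 := kill_mul_V_le (cl k ℓ) R S
    rw [Set.not_nonempty_iff_eq_empty.1 h, ne_empty] at *
    simpa using h2

/-- comparison of two clause processes whose literal families differ in a small fraction -/
lemma sum_diff_le [Nonempty Λ] (k : ℕ) (hk : 3 ≤ k) (ℓ ℓ' : Λ → Set Ω) (η θ : ℝ) (hη : 0 ≤ η)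
    (hηθ : η ≤ θ) (hθ : 0 < θ) (hθ1 : θ ≤ 1)
    (h1 : ∀ S, bb ℓ' S ≤ bb ℓ S) (h2 : ∀ S, bb ℓ S ≤ bb ℓ' S + η) (R : ℕ) (S : Set Ω) :
    ∑ j ∈ range R, ((U (cl k ℓ') ^ j) ne S - (U (cl k ℓ) ^ j) ne S)
      ≤ R * (k * η * 2 ^ k * (R * θ ^ 2 + 1 / θ)) := by
  set T := U (cl k ℓ)
  set T' := U (cl k ℓ')
  set φ : Set Ω → ℝ := T' ne - T ne with hφ
  set B := (k * η * 2 ^ k * (R * θ ^ 2 + 1 / θ)) with hB
  have hc : Commute T T' := U_comm _ _
  have hφle : ∀ S, φ S ≤ k * η * 2 ^ k * (θ ^ 2 + 1 / θ * kill (cl k ℓ') S) := by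
    intro S
    by_cases h : S.Nonempty
    · have e : φ S = bb ℓ S ^ k - bb ℓ' S ^ k := by
        simp only [hφ, Pi.sub_apply, T, T', U_cl_ne]; ring
      rw [e, kill_cl, ne_of_nonempty h, one_mul]
      have hb := bb_nonneg ℓ S
      have hb' := bb_nonneg ℓ' S
      set x := bb ℓ S
      set y := bb ℓ' S
      have hxy : y ≤ x := h1 S
      have hxy' : x ≤ y + η := h2 S
      have a1 : x ^ k - y ^ k ≤ k * x ^ (k - 1) * (x - y) := by
        have := abs_pow_sub_pow_le x y k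
        rw [abs_of_nonneg (sub_nonneg.2 hxy), abs_of_nonneg hb, abs_of_nonneg hb', max_eq_left hxy]
          at this
        calc _ ≤ |x ^ k - y ^ k| := le_abs_self _
          _ ≤ _ := this
          _ = _ := by ring
      have a2 : x ^ (k - 1) ≤ 2 ^ k * (θ ^ 2 + 1 / θ * y ^ k) := by
        have b0 : (2 : ℝ) ^ (k - 1) ≤ 2 ^ k := pow_le_pow_right₀ (by norm_num) (by omega)
        by_cases hx : x ≤ 2 * θ
        · have b1 : x ^ (k - 1) ≤ (2 * θ) ^ (k - 1) := pow_le_pow_left₀ hb hx _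
          have b2 : θ ^ (k - 1) ≤ θ ^ 2 := pow_le_pow_of_le_one hθ.le hθ1 (by omega)
          have b3 : 0 ≤ 1 / θ * y ^ k := by positivity
          calc x ^ (k - 1) ≤ 2 ^ (k - 1) * θ ^ (k - 1) := by rw [← mul_pow]; exact b1
            _ ≤ 2 ^ k * θ ^ 2 := by gcongr
            _ ≤ _ := by gcongr; linarith
        · push Not at hx
          have b1 : x ≤ 2 * y := by linarith
          have b2 : θ ≤ y := by linarith
          have b3 : y ^ (k - 1) ≤ 1 / θ * y ^ k := by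
            have : y ^ k = y ^ (k - 1) * y := by rw [← pow_succ]; congr 1; omega
            rw [this, one_div, mul_comm, mul_assoc]
            refine le_mul_of_one_le_right (by positivity) ?_
            rw [← div_eq_mul_inv, one_le_div hθ]; exact b2
          calc x ^ (k - 1) ≤ (2 * y) ^ (k - 1) := pow_le_pow_left₀ hb b1 _
            _ = 2 ^ (k - 1) * y ^ (k - 1) := mul_pow _ _ _
            _ ≤ 2 ^ k * (1 / θ * y ^ k) := by gcongr
            _ ≤ _ := by gcongr; nlinarith [sq_nonneg θ]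
      calc x ^ k - y ^ k ≤ k * x ^ (k - 1) * (x - y) := a1
        _ ≤ k * (2 ^ k * (θ ^ 2 + 1 / θ * y ^ k)) * η := by gcongr <;> linarith
        _ = _ := by ring
    · have e : φ S = 0 := by
        rw [Set.not_nonempty_iff_eq_empty.1 h]
        simp only [hφ, Pi.sub_apply, T, T', U_cl_ne, bb_empty]; ring
      rw [e]
      have : 0 ≤ kill (cl k ℓ') S := sub_nonneg.2 (U_ne_le _ _)
      positivity
  have hsum : ∀ r ≤ R, ∀ S, ∑ i ∈ range r, (T' ^ i) φ S ≤ B := by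
    intro r hr S
    have c1 : ∀ i, (T' ^ i) φ S
        ≤ k * η * 2 ^ k * (θ ^ 2 + 1 / θ * (T' ^ i) (kill (cl k ℓ')) S) := by
      intro i
      refine (((Loc_U _).pow i).mono fun S' _ => hφle S').trans (le_of_eq ?_)
      have e : (fun S' => k * η * 2 ^ k * (θ ^ 2 + 1 / θ * kill (cl k ℓ') S'))
          = (k * η * 2 ^ k : ℝ) • ((fun _ => θ ^ 2) + (1 / θ) • kill (cl k ℓ')) := by
        funext S'; simp
      rw [e, map_smul, map_add, map_smul, U_pow_const]
      simp [T']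
    calc _ ≤ ∑ i ∈ range r, k * η * 2 ^ k * (θ ^ 2 + 1 / θ * (T' ^ i) (kill (cl k ℓ')) S) :=
          Finset.sum_le_sum fun i _ => c1 i
      _ = k * η * 2 ^ k * (r * θ ^ 2 + 1 / θ * ∑ i ∈ range r, (T' ^ i) (kill (cl k ℓ')) S) := by
          rw [← Finset.mul_sum, Finset.sum_add_distrib, ← Finset.mul_sum]; simp
      _ ≤ k * η * 2 ^ k * (R * θ ^ 2 + 1 / θ * 1) := by
          gcongr
          exact (sum_kill_le _ _ _).trans (ne_le_one _)
      _ = B := by rw [hB, mul_one]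
  have hB0 : 0 ≤ B := by positivity
  have main : ∀ r ≤ R, ∀ S, ∑ j ∈ range r, ((T' ^ j) ne S - (T ^ j) ne S) ≤ r * B := by
    intro r
    induction r with
    | zero => simp
    | succ r ih =>
      intro hr S
      have ih' := ih (by omega)
      rw [Finset.sum_range_succ']
      have e : ∀ j, (T' ^ (j + 1)) ne S - (T ^ (j + 1)) ne S
          = (T' ^ j) φ S + T (fun S' => (T' ^ j) ne S' - (T ^ j) ne S') S := by
        intro j
        have e1 : (fun S' => (T' ^ j) ne S' - (T ^ j) ne S') = (T' ^ j) ne - (T ^ j) ne := rfl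
        rw [e1, hφ, map_sub, map_sub, ← Module.End.mul_apply T, (hc.pow_right j).eq,
          pow_succ, pow_succ']
        simp only [Module.End.mul_apply, Pi.sub_apply]
        ring
      simp only [e, Finset.sum_add_distrib]
      rw [← U_sum]
      have d1 := hsum r (by omega) S
      have d2 := (Loc_U (cl k ℓ)).mono (S := S) fun S' _ => ih' S'
      rw [U_const] at d2
      simp only [pow_zero, sub_self, add_zero]
      push_cast
      have d3 : U (cl k ℓ) (fun S' => ∑ j ∈ range r, ((T' ^ j) ne S' - (T ^ j) ne S')) S ≤ r * B := d2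
      linarith
  exact main R le_rfl S

end Vale.Agent.P170
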