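import Vale.Agent.P170.Clause

open Finset

namespace Vale.Agent.P170

/-- the set of assignments making a literal true -/
def lit (n : ℕ) : Fin n × Bool → Set (Fin n → Bool) := fun l => {σ | σ l.1 = l.2}

/-- the literal family in which literals on the variable `x` are always true -/
def litx (n : ℕ) (x : Fin n) : Fin n × Bool → Set (Fin n → Bool) :=
  fun l => if l.1 = x then Set.univ else lit n l

/-- satisfiability probability in the with-replacement model -/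
noncomputable def pw (k n m : ℕ) : ℝ := (U (cl k (lit n)) ^ m) ne Set.univ

lemma U_pow_ne_le_of_map {Ω Ω' ι : Type} [Fintype ι] (π : Ω → Ω') (a : ι → Set Ω) (a' : ι → Set Ω')
    (h : ∀ i, ∀ x ∈ a i, π x ∈ a' i) (t : ℕ) (S : Set Ω) :
    (U a ^ t) ne S ≤ (U a' ^ t) ne (π '' S) := by
  induction t generalizing S with
  | zero =>
    simp only [pow_zero, Module.End.one_apply]
    by_cases h : S.Nonempty
    · rw [ne_of_nonempty h, ne_of_nonempty (h.image π)]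
    · rw [Set.not_nonempty_iff_eq_empty.1 h, Set.image_empty, ne_empty, ne_empty]
  | succ t ih =>
    rw [pow_succ', pow_succ', Module.End.mul_apply, Module.End.mul_apply, U_apply, U_apply]
    refine div_le_div_of_nonneg_right (Finset.sum_le_sum fun i _ => ?_) (Nat.cast_nonneg _)
    refine (ih _).trans (U_pow_monotone a' ne_monotone t ?_)
    rintro _ ⟨x, ⟨hx, hx'⟩, rfl⟩
    exact ⟨⟨x, hx, rfl⟩, h i x hx'⟩

lemma pw_le_litx (k n : ℕ) (l : Fin n × Bool) (j : ℕ) :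
    (U (cl k (lit n)) ^ j) ne Set.univ ≤ (U (cl k (litx n l.1)) ^ j) ne (lit n l) := by
  classical
  refine (U_pow_ne_le_of_map (fun σ => Function.update σ l.1 l.2) _ (cl k (litx n l.1)) ?_ j _).trans
    (U_pow_monotone _ ne_monotone j ?_)
  · intro C σ hσ
    obtain ⟨i, hi⟩ := Set.mem_iUnion.1 hσ
    refine Set.mem_iUnion.2 ⟨i, ?_⟩
    unfold litx
    split_ifs with h
    · trivial
    · show Function.update σ l.1 l.2 (C i).1 = (C i).2
      rw [Function.update_of_ne h]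
      exact hi
  · rintro _ ⟨σ, -, rfl⟩
    simp [lit]

lemma bb_litx_le (n : ℕ) (x : Fin n) (S : Set (Fin n → Bool)) : bb (litx n x) S ≤ bb (lit n) S := by
  unfold bb
  refine div_le_div_of_nonneg_right (Finset.sum_le_sum fun l _ => ?_) (Nat.cast_nonneg _)
  refine sub_le_sub_left (ne_monotone (Set.inter_subset_inter_right _ ?_)) _
  unfold litx
  split_ifs
  · exact Set.subset_univ _
  · exact subset_rfl

lemma bb_le_litx (n : ℕ) (x : Fin n) (S : Set (Fin n → Bool)) :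
    bb (lit n) S ≤ bb (litx n x) S + 1 / n := by
  have hn : (0 : ℝ) < n := Nat.cast_pos.2 (Fin.pos x)
  unfold bb
  have h : ∑ l, (1 - ne (S ∩ lit n l)) ≤ ∑ l, ((1 - ne (S ∩ litx n x l))
      + if l.1 = x then 1 else 0) := by
    refine Finset.sum_le_sum fun l _ => ?_
    unfold litx
    split_ifs
    · have := ne_nonneg (S ∩ lit n l)
      have := ne_le_one (S ∩ Set.univ)
      linarith
    · simp
  rw [Finset.sum_add_distrib] at h
  have e : (∑ l : Fin n × Bool, if l.1 = x then (1 : ℝ) else 0) = 2 := by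
    rw [Fintype.sum_prod_type_right]
    simp only [Finset.sum_ite_eq', Finset.mem_univ, if_true]
    simp
  rw [e] at h
  have hc : (Fintype.card (Fin n × Bool) : ℝ) = 2 * n := by simp [mul_comm]
  rw [hc, div_add_div _ _ (by positivity) (by positivity), div_le_div_iff₀ (by positivity) (by positivity)]
  nlinarith [mul_pos hn hn]

lemma U_pow_ne_mul_bb {Ω Λ ι : Type} [Fintype Λ] [Nonempty Λ] [Fintype ι] (ℓ : Λ → Set Ω)
    (a : ι → Set Ω) (j : ℕ) (S : Set Ω) :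
    (U a ^ j) (fun S' => ne S' * bb ℓ S') S
      = (∑ l, ((U a ^ j) ne S - (U a ^ j) ne (S ∩ ℓ l))) / Fintype.card Λ := by
  have hc : (0 : ℝ) < Fintype.card Λ := Nat.cast_pos.2 Fintype.card_pos
  have e : (fun S' => ne S' * bb ℓ S')
      = (1 / (Fintype.card Λ : ℝ)) • ∑ l, (ne - fun S' => ne (S' ∩ ℓ l)) := by
    funext S'
    simp only [Pi.smul_apply, Finset.sum_apply, Pi.sub_apply, smul_eq_mul]
    by_cases h : S'.Nonempty
    · rw [ne_of_nonempty h, bb]; ring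
    · rw [Set.not_nonempty_iff_eq_empty.1 h]; simp [ne_empty]
  rw [e, map_smul, map_sum]
  simp only [Pi.smul_apply, Finset.sum_apply, smul_eq_mul, map_sub, Pi.sub_apply, U_pow_inter]
  ring

lemma sum_ne_mul_bb_le (k n : ℕ) (hk : 3 ≤ k) (hn : 1 ≤ n) (θ : ℝ) (hηθ : 1 / (n : ℝ) ≤ θ)
    (hθ : 0 < θ) (hθ1 : θ ≤ 1) (R : ℕ) :
    ∑ j ∈ range R, (U (cl k (lit n)) ^ j) (fun S' => ne S' * bb (lit n) S') Set.univ
      ≤ R * (k * (1 / n) * 2 ^ k * (R * θ ^ 2 + 1 / θ)) := by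
  haveI : Nonempty (Fin n) := ⟨⟨0, hn⟩⟩
  have hc : (0 : ℝ) < Fintype.card (Fin n × Bool) := Nat.cast_pos.2 Fintype.card_pos
  simp only [U_pow_ne_mul_bb, ← Finset.sum_div]
  rw [Finset.sum_comm, div_le_iff₀ hc]
  calc _ ≤ ∑ _l : Fin n × Bool, R * (k * (1 / n) * 2 ^ k * (R * θ ^ 2 + 1 / θ)) := by
        refine Finset.sum_le_sum fun l _ => ?_
        refine le_trans ?_ (sum_diff_le k hk (lit n) (litx n l.1) (1 / n) θ (by positivity) hηθ hθ hθ1
          (bb_litx_le n l.1) (bb_le_litx n l.1) R (lit n l))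
        refine Finset.sum_le_sum fun j _ => ?_
        rw [Set.univ_inter]
        exact sub_le_sub_right (pw_le_litx k n l j) _
    _ = _ := by rw [Finset.sum_const, Finset.card_univ, nsmul_eq_mul]; ring

/-- sixth root -/
noncomputable def w (n : ℕ) : ℝ := (n : ℝ) ^ ((1 : ℝ) / 6)

lemma w_pow (n : ℕ) : w n ^ 6 = n := by
  unfold w
  rw [← Real.rpow_natCast, ← Real.rpow_mul (Nat.cast_nonneg _)]
  norm_num

lemma w_nonneg (n : ℕ) : 0 ≤ w n := Real.rpow_nonneg (Nat.cast_nonneg _) _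

lemma one_le_w {n : ℕ} (hn : 1 ≤ n) : 1 ≤ w n :=
  Real.one_le_rpow (Nat.one_le_cast.2 hn) (by norm_num)

lemma w_mono {n n' : ℕ} (h : n ≤ n') : w n ≤ w n' :=
  Real.rpow_le_rpow (Nat.cast_nonneg _) (Nat.cast_le.2 h) (by norm_num)

/-- capped mean lifetime -/
noncomputable def mu (k n : ℕ) : ℝ := ∑ t ∈ range (2 ^ k * n), pw k n t

/-- the variance constant -/
noncomputable def C0 (k : ℕ) : ℝ := 4 * (2 ^ k) ^ 4 * k * (2 * 2 ^ k + 1)

lemma C0_pos {k : ℕ} (hk : 3 ≤ k) : 0 < C0 k := by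
  have : (0 : ℝ) < k := Nat.cast_pos.2 (by omega)
  unfold C0; positivity

lemma var_bound (k n : ℕ) (hk : 3 ≤ k) (hn : 1 ≤ n) :
    ∑ t ∈ range (2 ^ k * n), (2 * t + 1) * pw k n t - mu k n ^ 2 ≤ C0 k * w n ^ 10 := by
  haveI : Nonempty (Fin n) := ⟨⟨0, hn⟩⟩
  have hw := one_le_w hn
  have hw6 := w_pow n
  set u := w n with hu
  have hu0 : 0 < u := by linarith
  have hK : (1 : ℝ) ≤ 2 ^ k := one_le_pow₀ (by norm_num)
  have hL : (((2 ^ k * n : ℕ)) : ℝ) ≤ (2 ^ k * u ^ 2) ^ k := by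
    push_cast
    rw [← hw6, mul_pow]
    have h1 : (2 : ℝ) ^ k ≤ (2 ^ k) ^ k := le_self_pow₀ hK (by omega)
    have h2 : u ^ 6 ≤ (u ^ 2) ^ k := by
      rw [← pow_mul]; exact pow_le_pow_right₀ hw (by omega)
    gcongr
  have h := var_le_of_majorant (cl k (lit n)) (2 ^ k * n)
    (fun S => (2 ^ k * u ^ 2) * (ne S * bb (lit n) S))
    (fun S => mul_nonneg (by positivity) (mul_nonneg (ne_nonneg _) (bb_nonneg _ _)))
    (kill_mul_V_le_bb k (by omega) (lit n) _ _ hL (by positivity)) Set.univ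
  have e : ∀ j, (U (cl k (lit n)) ^ j) (fun S => (2 ^ k * u ^ 2) * (ne S * bb (lit n) S)) Set.univ
      = (2 ^ k * u ^ 2) * (U (cl k (lit n)) ^ j) (fun S => ne S * bb (lit n) S) Set.univ := fun j =>
    congrFun ((U (cl k (lit n)) ^ j).map_smul (2 ^ k * u ^ 2) (fun S => ne S * bb (lit n) S)) _
  simp only [e, ← Finset.mul_sum] at h
  have h2 := sum_ne_mul_bb_le k n hk hn (1 / u ^ 2) (by
      rw [← hw6]; exact one_div_le_one_div_of_le (by positivity) (pow_le_pow_right₀ hw (by norm_num)))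
    (by positivity) (by rw [div_le_one (by positivity)]; exact one_le_pow₀ hw) (2 * (2 ^ k * n))
  calc _ ≤ _ := h
    _ ≤ 2 * ((2 ^ k * n : ℕ) : ℝ) * ((2 ^ k * u ^ 2) * (((2 * (2 ^ k * n) : ℕ) : ℝ) *
        (k * (1 / n) * 2 ^ k * (((2 * (2 ^ k * n) : ℕ) : ℝ) * (1 / u ^ 2) ^ 2 + 1 / (1 / u ^ 2))))) := by
        gcongr
    _ = C0 k * u ^ 10 := by
        push_cast
        rw [← hw6, C0]
        field_simp
        ring

lemma pw_nonneg (k n m : ℕ) : 0 ≤ pw k n m := U_pow_ne_nonneg _ _ _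

lemma pw_le_one (k : ℕ) {n : ℕ} (hn : 1 ≤ n) (m : ℕ) : pw k n m ≤ 1 := by
  haveI : Nonempty (Fin n) := ⟨⟨0, hn⟩⟩
  exact (U_pow_ne_le _ _ _).trans (ne_le_one _)

lemma pw_antitone (k : ℕ) {n : ℕ} (hn : 1 ≤ n) : Antitone (pw k n) := by
  haveI : Nonempty (Fin n) := ⟨⟨0, hn⟩⟩
  exact U_pow_ne_antitone _ _

lemma mu_nonneg (k n : ℕ) : 0 ≤ mu k n := Finset.sum_nonneg fun _ _ => pw_nonneg _ _ _

lemma mu_le (k : ℕ) {n : ℕ} (hn : 1 ≤ n) : mu k n ≤ 2 ^ k * n := by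
  unfold mu
  calc _ ≤ ∑ _t ∈ range (2 ^ k * n), (1 : ℝ) := Finset.sum_le_sum fun t _ => pw_le_one k hn t
    _ = _ := by simp

lemma conc_lower (k n m : ℕ) (hk : 3 ≤ k) (hn : 1 ≤ n) (hm : (m : ℝ) < mu k n) :
    (1 - pw k n m) * (mu k n - m) ^ 2 ≤ C0 k * w n ^ 10 := by
  refine (cheb_lower (pw k n) (pw_antitone k hn) (pw_nonneg k n) (pw_le_one k hn 0) (2 ^ k * n) m ?_
    (mu k n) rfl hm.le).trans (var_bound k n hk hn)
  have := mu_le k hn
  exact_mod_cast hm.trans_le this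

lemma conc_upper (k n m : ℕ) (hk : 3 ≤ k) (hn : 1 ≤ n) (hm : mu k n ≤ m) (hm' : m < 2 ^ k * n) :
    pw k n m * (m - mu k n) ^ 2 ≤ C0 k * w n ^ 10 :=
  (cheb_upper (pw k n) (pw_antitone k hn) (pw_nonneg k n) (pw_le_one k hn 0) (2 ^ k * n) m hm'
    (mu k n) rfl hm).trans (var_bound k n hk hn)

/-- a lower bound on the satisfiability probability forces a lower bound on the mean -/
lemma mu_ge_of_pw (k n m : ℕ) (hk : 3 ≤ k) (hn : 1 ≤ n) (hm' : m < 2 ^ k * n) (δ D : ℝ)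
    (hδ : 0 < δ) (hD : 0 ≤ D) (hDδ : C0 k ≤ δ * D ^ 2) (hp : δ ≤ pw k n m) :
    m - D * w n ^ 5 ≤ mu k n := by
  have hw := w_nonneg n
  by_cases h : mu k n ≤ m
  · have h1 := conc_upper k n m hk hn h hm'
    have h2 : δ * (m - mu k n) ^ 2 ≤ δ * (D * w n ^ 5) ^ 2 := by
      calc δ * (m - mu k n) ^ 2 ≤ pw k n m * (m - mu k n) ^ 2 := by gcongr
        _ ≤ C0 k * w n ^ 10 := h1
        _ ≤ δ * D ^ 2 * w n ^ 10 := by gcongr
        _ = _ := by ring
    have h3 := le_of_mul_le_mul_left h2 hδ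
    have h4 := abs_le_of_sq_le_sq' h3 (by positivity)
    linarith [h4.2]
  · have : 0 ≤ D * w n ^ 5 := by positivity
    linarith

/-- below the mean, the formula is satisfiable with probability at least `1 - ε` -/
lemma pw_ge_of_le (k n m : ℕ) (hk : 3 ≤ k) (hn : 1 ≤ n) (ε D : ℝ)
    (hε : 0 < ε) (hD : 0 < D) (hDδ : C0 k ≤ ε * D ^ 2) (hm : m ≤ mu k n - D * w n ^ 5) :
    1 - ε ≤ pw k n m := by
  have hw := one_le_w hn
  have h0 : 0 < D * w n ^ 5 := by positivity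
  have h1 := conc_lower k n m hk hn (by linarith)
  have h2 : (D * w n ^ 5) ^ 2 ≤ (mu k n - m) ^ 2 := by gcongr; linarith
  by_contra hc
  push Not at hc
  have h3 : ε * (D * w n ^ 5) ^ 2 < (1 - pw k n m) * (mu k n - m) ^ 2 := by
    calc ε * (D * w n ^ 5) ^ 2 < (1 - pw k n m) * (D * w n ^ 5) ^ 2 := by gcongr; linarith
      _ ≤ _ := by gcongr; linarith
  have h4 : C0 k * w n ^ 10 ≤ ε * (D * w n ^ 5) ^ 2 := by
    calc C0 k * w n ^ 10 ≤ ε * D ^ 2 * w n ^ 10 := by gcongr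
      _ = _ := by ring
  linarith

end Vale.Agent.P170
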