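import Mathlib

namespace Vale.Agent.P170

/-- The proper `k`-clauses on the variables `Fin n`. A literal is a pair (variable, sign); the pair
`(i, true)` is the literal `x_i` and `(i, false)` is its negation. A proper `k`-clause is a set of
`k` literals on `k` distinct variables. -/
def ProperClause (n k : ℕ) : Finset (Finset (Fin n × Bool)) :=
  Finset.univ.filter fun C => C.card = k ∧ (C.image Prod.fst).card = k

/-- The formula with clauses `F 0, …, F (m-1)` is satisfiable: some assignment makes at least one
literal of every clause true. -/
def Sat {n m : ℕ} (F : Fin m → Finset (Fin n × Bool)) : Prop :=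
  ∃ σ : Fin n → Bool, ∀ j, ∃ l ∈ F j, σ l.1 = l.2

open Classical in
/-- The probability that `m` independent uniformly random proper `k`-clauses on `n` variables form a
satisfiable formula: the number of satisfiable `m`-tuples of proper clauses divided by the number
of all `m`-tuples of proper clauses. -/
noncomputable def P (k n m : ℕ) : ℝ :=
  (((Fintype.piFinset fun _ : Fin m => ProperClause n k).filter Sat).card : ℝ) /
    ((ProperClause n k).card : ℝ) ^ m

end Vale.Agent.P170
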