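import Vale.Agent.P170.Conc

open Finset

namespace Vale.Agent.P170

lemma U_pow_preimage {Ω Ω' ι : Type} [Fintype ι] (π : Ω → Ω') (a : ι → Set Ω')
    (f : Set Ω → ℝ) (f' : Set Ω' → ℝ) (h : ∀ A, f (π ⁻¹' A) = f' A) (t : ℕ) (A : Set Ω') :
    (U (fun i => π ⁻¹' a i) ^ t) f (π ⁻¹' A) = (U a ^ t) f' A := by
  induction t generalizing A with
  | zero => simpa using h A
  | succ t ih =>
    rw [pow_succ', pow_succ', Module.End.mul_apply, Module.End.mul_apply, U_apply, U_apply]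
    congr 1
    refine Finset.sum_congr rfl fun i _ => ?_
    rw [← Set.preimage_inter, ih]

/-- restriction to the first block -/
def res1 (n1 n2 : ℕ) (σ : Fin (n1 + n2) → Bool) : Fin n1 → Bool := fun i => σ (Fin.castAdd n2 i)

/-- restriction to the second block -/
def res2 (n1 n2 : ℕ) (σ : Fin (n1 + n2) → Bool) : Fin n2 → Bool := fun i => σ (Fin.natAdd n1 i)

def lit1 (n1 n2 : ℕ) : Fin n1 × Bool → Set (Fin (n1 + n2) → Bool) := fun l => res1 n1 n2 ⁻¹' lit n1 l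

def lit2 (n1 n2 : ℕ) : Fin n2 × Bool → Set (Fin (n1 + n2) → Bool) := fun l => res2 n1 n2 ⁻¹' lit n2 l

lemma cl_lit1 (k n1 n2 : ℕ) : cl k (lit1 n1 n2) = fun C => res1 n1 n2 ⁻¹' cl k (lit n1) C := by
  funext C; simp [cl, lit1, Set.preimage_iUnion]

lemma cl_lit2 (k n1 n2 : ℕ) : cl k (lit2 n1 n2) = fun C => res2 n1 n2 ⁻¹' cl k (lit n2) C := by
  funext C; simp [cl, lit2, Set.preimage_iUnion]

lemma prod_formula (k n1 n2 i j : ℕ) :
    (U (cl k (lit1 n1 n2)) ^ i) ((U (cl k (lit2 n1 n2)) ^ j) ne) Set.univ = pw k n1 i * pw k n2 j := by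
  have h : ∀ A, (U (cl k (lit2 n1 n2)) ^ j) ne (res1 n1 n2 ⁻¹' A) = ((pw k n2 j) • ne) A := by
    intro A
    rw [cl_lit2, U_pow_ne_image, Pi.smul_apply, smul_eq_mul]
    by_cases hA : A.Nonempty
    · obtain ⟨σ1, hσ1⟩ := hA
      have : res2 n1 n2 '' (res1 n1 n2 ⁻¹' A) = Set.univ := by
        refine Set.eq_univ_of_forall fun σ2 => ⟨Fin.append σ1 σ2, ?_, ?_⟩
        · have : res1 n1 n2 (Fin.append σ1 σ2) = σ1 := by funext i; simp [res1]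
          rw [Set.mem_preimage, this]; exact hσ1
        · funext i; simp [res2]
      rw [this, ne_of_nonempty ⟨σ1, hσ1⟩, mul_one, pw]
    · rw [Set.not_nonempty_iff_eq_empty.1 hA, Set.preimage_empty, Set.image_empty, ne_empty, mul_zero,
        U_pow_apply]
      simp [ne_empty]
  have h2 := U_pow_preimage (res1 n1 n2) (cl k (lit n1)) _ _ h i Set.univ
  rw [Set.preimage_univ, map_smul, Pi.smul_apply, smul_eq_mul] at h2
  rw [cl_lit1, h2, mul_comm]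
  rfl

lemma bb_split (n1 n2 : ℕ) (h1 : 1 ≤ n1) (h2 : 1 ≤ n2) (S : Set (Fin (n1 + n2) → Bool)) :
    bb (lit (n1 + n2)) S = (n1 / (n1 + n2) : ℝ) * bb (lit1 n1 n2) S
      + (1 - n1 / (n1 + n2) : ℝ) * bb (lit2 n1 n2) S := by
  have a1 : (0 : ℝ) < n1 := Nat.cast_pos.2 h1
  have a2 : (0 : ℝ) < n2 := Nat.cast_pos.2 h2
  unfold bb
  rw [Fintype.sum_prod_type, Fin.sum_univ_add, Fintype.sum_prod_type, Fintype.sum_prod_type]
  have e1 : ∀ x b, lit (n1 + n2) (Fin.castAdd n2 x, b) = lit1 n1 n2 (x, b) := fun _ _ => rfl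
  have e2 : ∀ x b, lit (n1 + n2) (Fin.natAdd n1 x, b) = lit2 n1 n2 (x, b) := fun _ _ => rfl
  simp only [e1, e2, Fintype.card_prod, Fintype.card_fin, Fintype.card_bool]
  push_cast
  field_simp
  ring

lemma interp (k n1 n2 m : ℕ) (h1 : 1 ≤ n1) (h2 : 1 ≤ n2) :
    ∑ i ∈ range (m + 1), (m.choose i * (n1 / (n1 + n2) : ℝ) ^ i * (1 - n1 / (n1 + n2) : ℝ) ^ (m - i))
      * (pw k n1 i * pw k n2 (m - i)) ≤ pw k (n1 + n2) m := by
  haveI : Nonempty (Fin n1) := ⟨⟨0, h1⟩⟩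
  haveI : Nonempty (Fin n2) := ⟨⟨0, h2⟩⟩
  haveI : Nonempty (Fin (n1 + n2)) := ⟨⟨0, by omega⟩⟩
  have a1 : (0 : ℝ) < n1 := Nat.cast_pos.2 h1
  have a2 : (0 : ℝ) < n2 := Nat.cast_pos.2 h2
  set x : ℝ := n1 / (n1 + n2) with hx
  have hx0 : 0 ≤ x := by positivity
  have hx1 : 0 ≤ 1 - x := by rw [hx, sub_nonneg, div_le_one (by positivity)]; linarith
  set T1 := U (cl k (lit1 n1 n2))
  set T2 := U (cl k (lit2 n1 n2))
  have c12 : Commute T1 T2 := U_comm _ _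
  have hT : Loc (x • T1 + (1 - x) • T2) := ((Loc_U _).smul hx0).add ((Loc_U _).smul hx1)
  have hc : Commute (x • T1 + (1 - x) • T2) (U (cl k (lit (n1 + n2)))) :=
    ((U_comm _ _).smul_left x).add_left ((U_comm _ _).smul_left (1 - x))
  have hle : ∀ S, (x • T1 + (1 - x) • T2) ne S ≤ U (cl k (lit (n1 + n2))) ne S := by
    intro S
    have e : (x • T1 + (1 - x) • T2) ne S = x * T1 ne S + (1 - x) * T2 ne S := rfl
    rw [e, U_cl_ne, U_cl_ne, U_cl_ne, bb_split n1 n2 h1 h2]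
    have := (convexOn_pow (𝕜 := ℝ) k).2 (bb_nonneg (lit1 n1 n2) S) (bb_nonneg (lit2 n1 n2) S) hx0 hx1
      (by ring)
    simp only [smul_eq_mul] at this
    linarith
  refine le_trans (le_of_eq ?_) (pow_ne_le_pow_ne hT (Loc_U _) hc hle m Set.univ)
  rw [((c12.smul_left x).smul_right (1 - x)).add_pow, LinearMap.sum_apply, Finset.sum_apply]
  refine Finset.sum_congr rfl fun i _ => ?_
  rw [← prod_formula, smul_pow, smul_pow]
  simp only [Module.End.mul_apply, LinearMap.smul_apply, Module.End.natCast_apply, map_nsmul, map_smul,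
    Pi.smul_apply, smul_eq_mul]
  rw [nsmul_eq_mul]
  ring

lemma binom_sum (m : ℕ) (x : ℝ) :
    ∑ i ∈ range (m + 1), (m.choose i * x ^ i * (1 - x) ^ (m - i)) = 1 := by
  have := congrArg (Polynomial.eval x) (bernsteinPolynomial.sum ℝ m)
  simpa [Polynomial.eval_finset_sum, bernsteinPolynomial] using this

lemma binom_var (m : ℕ) (x : ℝ) :
    ∑ i ∈ range (m + 1), (m * x - i) ^ 2 * (m.choose i * x ^ i * (1 - x) ^ (m - i))
      = m * x * (1 - x) := by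
  have := congrArg (Polynomial.eval x) (bernsteinPolynomial.variance ℝ m)
  simpa [Polynomial.eval_finset_sum, bernsteinPolynomial] using this

lemma pw_zero (k n : ℕ) : pw k n 0 = 1 := by
  simp [pw, ne_of_nonempty]

lemma pw_rem (k n1 n2 m : ℕ) (h1 : 1 ≤ n1) (h2 : 1 ≤ n2) :
    (n1 / (n1 + n2) : ℝ) ^ m * pw k n1 m ≤ pw k (n1 + n2) m := by
  refine le_trans ?_ (interp k n1 n2 m h1 h2)
  have a1 : (0 : ℝ) < n1 := Nat.cast_pos.2 h1
  have a2 : (0 : ℝ) < n2 := Nat.cast_pos.2 h2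
  have hx1 : 0 ≤ 1 - (n1 / (n1 + n2) : ℝ) := by
    rw [sub_nonneg, div_le_one (by positivity)]; linarith
  refine le_trans (le_of_eq ?_) (Finset.single_le_sum (fun i _ => ?_) (Finset.self_mem_range_succ m))
  · simp [pw_zero]
  · exact mul_nonneg (by positivity) (mul_nonneg (pw_nonneg _ _ _) (pw_nonneg _ _ _))

/-- deviation constant -/
noncomputable def D0 (k : ℕ) : ℝ := C0 k + 1

lemma D0_pos {k : ℕ} (hk : 3 ≤ k) : 0 < D0 k := by have := C0_pos hk; unfold D0; linarith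

lemma C0_le_D0 (k : ℕ) : C0 k ≤ 1 / 4 * D0 k ^ 2 := by
  unfold D0; nlinarith [sq_nonneg (C0 k - 1)]

/-- superadditivity defect constant -/
noncomputable def C1 (k : ℕ) : ℝ := 3 * 2 ^ k + 4 * D0 k + 1

lemma binom_lower (m : ℕ) (x s : ℝ) (hx0 : 0 ≤ x) (hx1 : 0 ≤ 1 - x) (hs : 0 < s) (hms : m ≤ s ^ 2)
    (g : ℕ → ℝ) (hg0 : ∀ i, 0 ≤ g i) (hg : ∀ i ≤ m, |m * x - i| < s → 9 / 16 ≤ g i) :
    1 / 4 ≤ ∑ i ∈ range (m + 1), (m.choose i * x ^ i * (1 - x) ^ (m - i)) * g i := by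
  have term : ∀ i ∈ range (m + 1), 9 / 16 * (1 - (m * x - i) ^ 2 / s ^ 2) ≤ g i := by
    intro i hi
    have hi' : i ≤ m := Nat.lt_succ_iff.1 (Finset.mem_range.1 hi)
    by_cases hc : s ^ 2 ≤ (m * x - i) ^ 2
    · have : 1 ≤ (m * x - i) ^ 2 / s ^ 2 := by rw [one_le_div (by positivity)]; exact hc
      have := hg0 i
      linarith
    · push Not at hc
      have hc' := abs_lt_of_sq_lt_sq hc hs.le
      have := hg i hi' hc'
      have : 0 ≤ (m * x - i) ^ 2 / s ^ 2 := by positivity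
      linarith
  have hb : ∀ i, 0 ≤ (m.choose i * x ^ i * (1 - x) ^ (m - i)) := fun i => by positivity
  refine le_trans ?_ (Finset.sum_le_sum fun i hi => mul_le_mul_of_nonneg_left (term i hi) (hb i))
  have e : ∀ i : ℕ, (m.choose i * x ^ i * (1 - x) ^ (m - i)) * (9 / 16 * (1 - (m * x - i) ^ 2 / s ^ 2))
      = 9 / 16 * (m.choose i * x ^ i * (1 - x) ^ (m - i))
        - 9 / 16 / s ^ 2 * ((m * x - i) ^ 2 * (m.choose i * x ^ i * (1 - x) ^ (m - i))) :=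
    fun i => by ring
  simp only [e, Finset.sum_sub_distrib, ← Finset.mul_sum, binom_sum, binom_var]
  have v1 : m * x * (1 - x) ≤ s ^ 2 / 4 := by
    have t1 : x * (1 - x) ≤ 1 / 4 := by nlinarith [sq_nonneg (x - 1 / 2)]
    have : (0 : ℝ) ≤ m := Nat.cast_nonneg _
    nlinarith
  have v2 : 9 / 16 / s ^ 2 * (m * x * (1 - x)) ≤ 9 / 64 := by
    calc _ ≤ 9 / 16 / s ^ 2 * (s ^ 2 / 4) := by gcongr
      _ = _ := by field_simp; norm_num
  linarith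

lemma pw_quarter (k n1 n2 m : ℕ) (hk : 3 ≤ k) (h1 : 1 ≤ n1) (h2 : 1 ≤ n2) (s : ℝ) (hs : 0 < s)
    (hms : m ≤ s ^ 2)
    (b1 : m * (n1 / (n1 + n2) : ℝ) + s ≤ mu k n1 - D0 k * w n1 ^ 5)
    (b2 : m * (1 - n1 / (n1 + n2) : ℝ) + s ≤ mu k n2 - D0 k * w n2 ^ 5) :
    1 / 4 ≤ pw k (n1 + n2) m := by
  have a1 : (0 : ℝ) < n1 := Nat.cast_pos.2 h1
  have a2 : (0 : ℝ) < n2 := Nat.cast_pos.2 h2
  refine le_trans ?_ (interp k n1 n2 m h1 h2)
  refine binom_lower m _ s (by positivity) (by rw [sub_nonneg, div_le_one (by positivity)]; linarith)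
    hs hms _ (fun i => mul_nonneg (pw_nonneg _ _ _) (pw_nonneg _ _ _)) fun i hi hc => ?_
  have hc' := abs_lt.1 hc
  have p1 := pw_ge_of_le k n1 i hk h1 (1 / 4) (D0 k) (by norm_num) (D0_pos hk) (C0_le_D0 k)
    (by linarith [hc'.1])
  have p2 := pw_ge_of_le k n2 (m - i) hk h2 (1 / 4) (D0 k) (by norm_num) (D0_pos hk) (C0_le_D0 k) (by
    rw [Nat.cast_sub hi]
    linarith [hc'.2])
  nlinarith

lemma superadd (k n1 n2 : ℕ) (hk : 3 ≤ k) (h1 : 1 ≤ n1) (h2 : 1 ≤ n2) (h1' : n1 + n2 ≤ 3 * n1)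
    (h2' : n1 + n2 ≤ 3 * n2) (ρ : ℝ) (hρ1 : ρ * n1 ≤ mu k n1) (hρ2 : ρ * n2 ≤ mu k n2) :
    ρ * (n1 + n2) - C1 k * w (n1 + n2) ^ 5 ≤ mu k (n1 + n2) := by
  have a1 : (0 : ℝ) < n1 := Nat.cast_pos.2 h1
  have a2 : (0 : ℝ) < n2 := Nat.cast_pos.2 h2
  have hD := D0_pos hk
  have hn : 1 ≤ n1 + n2 := by omega
  have hw := one_le_w hn
  have hw6 := w_pow (n1 + n2)
  have w1 : w n1 ^ 5 ≤ w (n1 + n2) ^ 5 := pow_le_pow_left₀ (w_nonneg _) (w_mono (by omega)) 5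
  have w2 : w n2 ^ 5 ≤ w (n1 + n2) ^ 5 := pow_le_pow_left₀ (w_nonneg _) (w_mono (by omega)) 5
  have hq := pw_quarter k n1 n2
  have hmu := mu_ge_of_pw k (n1 + n2)
  have hρK : ρ ≤ 2 ^ k := by
    have := mu_le k h1
    exact le_of_mul_le_mul_right (hρ1.trans this) a1
  have hmu0 := mu_nonneg k (n1 + n2)
  unfold C1
  generalize w (n1 + n2) = u at *
  have hu5 : 1 ≤ u ^ 5 := one_le_pow₀ hw
  have hK : (1 : ℝ) ≤ 2 ^ k := one_le_pow₀ (by norm_num)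
  have hC := C0_le_D0 k
  generalize D0 k = D at *
  obtain ⟨K, hKdef⟩ : ∃ K : ℝ, K = 2 ^ k := ⟨_, rfl⟩
  rw [← hKdef] at hK hρK ⊢
  obtain ⟨y, hy⟩ : ∃ y : ℝ, y = ρ * (n1 + n2) - 3 * ((K + D) * u ^ 5) := ⟨_, rfl⟩
  have h4 : 0 < (K + D) * u ^ 5 := by positivity
  have h5 : 0 ≤ D * u ^ 5 := by positivity
  by_cases hy0 : y < 0
  · linarith
  push Not at hy0
  obtain ⟨m, hm1, hm2⟩ : ∃ m : ℕ, (m : ℝ) ≤ y ∧ y < m + 1 :=
    ⟨_, Nat.floor_le hy0, Nat.lt_floor_add_one y⟩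
  have hmK : (m : ℝ) < K * (n1 + n2) := by
    have : ρ * (n1 + n2) ≤ K * (n1 + n2) := by gcongr
    linarith
  obtain ⟨x, hx⟩ : ∃ x : ℝ, x = n1 / (n1 + n2) := ⟨_, rfl⟩
  rw [← hx] at hq
  have hx0 : 1 / 3 ≤ x := by
    rw [hx, le_div_iff₀ (by positivity)]
    have : ((n1 + n2 : ℕ) : ℝ) ≤ ((3 * n1 : ℕ) : ℝ) := Nat.cast_le.2 h1'
    push_cast at this; linarith
  have hx1' : 1 - x = n2 / (n1 + n2) := by rw [hx]; field_simp; ring
  have hx1 : 1 / 3 ≤ 1 - x := by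
    rw [hx1', le_div_iff₀ (by positivity)]
    have : ((n1 + n2 : ℕ) : ℝ) ≤ ((3 * n2 : ℕ) : ℝ) := Nat.cast_le.2 h2'
    push_cast at this; linarith
  have b1 : m * x ≤ ρ * n1 - (K + D) * u ^ 5 := by
    have : y * x = ρ * n1 - 3 * (x * ((K + D) * u ^ 5)) := by rw [hy, hx]; field_simp
    have h3 : m * x ≤ y * x := by gcongr
    have h6 : 1 / 3 * ((K + D) * u ^ 5) ≤ x * ((K + D) * u ^ 5) := by gcongr
    linarith
  have b2 : m * (1 - x) ≤ ρ * n2 - (K + D) * u ^ 5 := by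
    have : y * (1 - x) = ρ * n2 - 3 * ((1 - x) * ((K + D) * u ^ 5)) := by rw [hx1', hy]; field_simp
    have h3 : m * (1 - x) ≤ y * (1 - x) := by gcongr
    have h6 : 1 / 3 * ((K + D) * u ^ 5) ≤ (1 - x) * ((K + D) * u ^ 5) := by gcongr
    linarith
  have t2 : (m : ℝ) ≤ (K * u ^ 5) ^ 2 := by
    have t3 : (n1 + n2 : ℝ) = u ^ 6 := by rw [hw6]; push_cast; ring
    have t4 : u ^ 6 ≤ u ^ 10 := pow_le_pow_right₀ hw (by norm_num)
    have t5 : K ≤ K ^ 2 := le_self_pow₀ hK (by norm_num)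
    calc (m : ℝ) ≤ K * u ^ 6 := by rw [← t3]; exact hmK.le
      _ ≤ K ^ 2 * u ^ 10 := by gcongr
      _ = _ := by ring
  have d1 : D * w n1 ^ 5 ≤ D * u ^ 5 := by gcongr
  have d2 : D * w n2 ^ 5 ≤ D * u ^ 5 := by gcongr
  have hp := hq m hk h1 h2 (K * u ^ 5) (by positivity) t2 (by linarith) (by linarith)
  have h := hmu m hk hn (by
    have : (m : ℝ) < ((2 ^ k * (n1 + n2) : ℕ) : ℝ) := by push_cast; rw [← hKdef]; exact hmK
    exact_mod_cast this) (1 / 4) D (by norm_num) hD.le hC hp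
  linarith

end Vale.Agent.P170
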