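import Vale.Agent.P170.Interp

open Finset Filter Topology

namespace Vale.Agent.P170

/-- normalised mean lifetime -/
noncomputable def rho (k n : ℕ) : ℝ := mu k n / n

lemma C1_pos {k : ℕ} (hk : 3 ≤ k) : 0 < C1 k := by
  have := D0_pos hk
  unfold C1; positivity

lemma w_ratio {n1 n : ℕ} (h : 3 * n1 ≤ 2 * n) : 53 / 50 * w n1 ≤ w n := by
  have h1 : (3 : ℝ) * n1 ≤ 2 * n := by exact_mod_cast h
  have h0 : (0 : ℝ) ≤ n1 := Nat.cast_nonneg _
  refine le_of_pow_le_pow_left₀ (n := 6) (by norm_num) (w_nonneg _) ?_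
  rw [mul_pow, w_pow, w_pow]
  norm_num
  linarith

lemma chain (k N : ℕ) (hk : 3 ≤ k) (hN : 1 ≤ N) (q : ℕ) (hq : 1 ≤ q) :
    rho k N - 17 * C1 k * (1 / w N - 1 / w (q * N)) ≤ rho k (q * N) := by
  induction q using Nat.strong_induction_on with
  | _ q ih =>
    rcases Nat.eq_or_lt_of_le hq with h | h
    · subst h; simp
    have hC := C1_pos hk
    obtain ⟨q1, q2, rfl, a1, a2, a3, a4⟩ : ∃ q1 q2, q = q1 + q2 ∧ 1 ≤ q1 ∧ 1 ≤ q2 ∧ q1 ≤ 2 * q2 ∧
        q2 ≤ 2 * q1 := ⟨q / 2, q - q / 2, by omega, by omega, by omega, by omega, by omega⟩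
    have b1 : 1 ≤ q1 * N := Nat.mul_pos a1 hN
    have b2 : 1 ≤ q2 * N := Nat.mul_pos a2 hN
    have c1 : q1 * N ≤ 2 * (q2 * N) := by nlinarith
    have c2 : q2 * N ≤ 2 * (q1 * N) := by nlinarith
    have i1 := ih q1 (by omega) a1
    have i2 := ih q2 (by omega) a2
    rw [add_mul]
    generalize q1 * N = n1 at *
    generalize q2 * N = n2 at *
    have hw := one_le_w (n := n1 + n2) (by omega)
    have w1 := one_le_w b1
    have w2 := one_le_w b2
    have r1 : 53 / 50 * (1 / w (n1 + n2)) ≤ 1 / w n1 := by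
      have := w_ratio (n1 := n1) (n := n1 + n2) (by omega)
      rw [mul_one_div, div_le_div_iff₀ (by positivity) (by positivity)]; linarith
    have r2 : 53 / 50 * (1 / w (n1 + n2)) ≤ 1 / w n2 := by
      have := w_ratio (n1 := n2) (n := n1 + n2) (by omega)
      rw [mul_one_div, div_le_div_iff₀ (by positivity) (by positivity)]; linarith
    have p1 : (0 : ℝ) < n1 := Nat.cast_pos.2 b1
    have p2 : (0 : ℝ) < n2 := Nat.cast_pos.2 b2
    have h := superadd k n1 n2 hk b1 b2 (by omega) (by omega)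
      (rho k N - 17 * C1 k * (1 / w N - 53 / 50 * (1 / w (n1 + n2))))
      (by
        rw [← le_div_iff₀ p1]
        refine le_trans ?_ i1
        gcongr)
      (by
        rw [← le_div_iff₀ p2]
        refine le_trans ?_ i2
        gcongr)
    have e : C1 k * w (n1 + n2) ^ 5 = C1 k * (1 / w (n1 + n2)) * (n1 + n2) := by
      have := w_pow (n1 + n2)
      push_cast at this
      rw [← this]
      field_simp
    rw [e, ← sub_mul] at h
    have h' : rho k N - 17 * C1 k * (1 / w N - 53 / 50 * (1 / w (n1 + n2)))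
        - C1 k * (1 / w (n1 + n2)) ≤ rho k (n1 + n2) := by
      rw [rho.eq_def k (n1 + n2), le_div_iff₀ (by push_cast; positivity)]
      push_cast
      exact h
    have : 0 ≤ C1 k * (1 / w (n1 + n2)) := by positivity
    nlinarith

lemma chain' (k N : ℕ) (hk : 3 ≤ k) (hN : 1 ≤ N) (q : ℕ) (hq : 1 ≤ q) :
    (rho k N - 17 * C1 k / w N) * (q * N : ℕ) ≤ mu k (q * N) := by
  have h := chain k N hk hN q hq
  have b1 : 1 ≤ q * N := Nat.mul_pos hq hN
  have hw := one_le_w b1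
  have hC := C1_pos hk
  rw [← le_div_iff₀ (Nat.cast_pos.2 b1)]
  refine le_trans ?_ h
  have : 0 ≤ 17 * C1 k * (1 / w (q * N)) := by positivity
  have e : 17 * C1 k / w N = 17 * C1 k * (1 / w N) := by ring
  rw [e]
  linarith

lemma rem_step (k N : ℕ) (hk : 3 ≤ k) (hN : 1 ≤ N) : ∃ E : ℝ, 0 ≤ E ∧ ∀ q r : ℕ, 1 ≤ q → 1 ≤ r → r ≤ N →
    mu k (q * N) - E * w (q * N + r) ^ 5 ≤ mu k (q * N + r) := by
  have hC := C0_pos hk
  have hD := D0_pos hk
  obtain ⟨δ, hδ⟩ : ∃ δ : ℝ, δ = Real.exp (-(2 ^ k * N)) * (3 / 4) := ⟨_, rfl⟩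
  have hδ0 : 0 < δ := by rw [hδ]; positivity
  refine ⟨D0 k + (C0 k / δ + 1) + 1, by positivity, fun q r hq hr hrN => ?_⟩
  have b1 : 1 ≤ q * N := Nat.mul_pos hq hN
  have hw := one_le_w (n := q * N + r) (by omega)
  have hw5 : 1 ≤ w (q * N + r) ^ 5 := one_le_pow₀ hw
  have w1 : w (q * N) ^ 5 ≤ w (q * N + r) ^ 5 := pow_le_pow_left₀ (w_nonneg _) (w_mono (by omega)) 5
  have d1 : D0 k * w (q * N) ^ 5 ≤ D0 k * w (q * N + r) ^ 5 := by gcongr
  have d2 : 0 ≤ (C0 k / δ + 1) * w (q * N + r) ^ 5 := by positivity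
  have d3 : 0 < D0 k * w (q * N) ^ 5 := by have := one_le_w b1; positivity
  have hmu0 := mu_nonneg k (q * N + r)
  by_cases hy0 : mu k (q * N) - D0 k * w (q * N) ^ 5 < 0
  · linarith
  push Not at hy0
  obtain ⟨m, hm1, hm2⟩ : ∃ m : ℕ, (m : ℝ) ≤ mu k (q * N) - D0 k * w (q * N) ^ 5 ∧
      mu k (q * N) - D0 k * w (q * N) ^ 5 < m + 1 := ⟨_, Nat.floor_le hy0, Nat.lt_floor_add_one _⟩
  have hmK : (m : ℝ) < 2 ^ k * (q * N : ℕ) := by linarith [mu_le k b1]
  have p1 := pw_ge_of_le k (q * N) m hk b1 (1 / 4) (D0 k) (by norm_num) hD (C0_le_D0 k) hm1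
  have p2 := pw_rem k (q * N) r m b1 hr
  have hq0 : (0 : ℝ) < q := Nat.cast_pos.2 hq
  have hN0 : (0 : ℝ) < N := Nat.cast_pos.2 hN
  have p3 : Real.exp (-(1 / q)) ≤ ((q * N : ℕ) / ((q * N : ℕ) + r) : ℝ) := by
    have t1 : 1 / (q : ℝ) + 1 ≤ Real.exp (1 / q) := Real.add_one_le_exp _
    have t2 : (r : ℝ) ≤ N := Nat.cast_le.2 hrN
    have t3 : (0 : ℝ) ≤ r := Nat.cast_nonneg _
    rw [Real.exp_neg, inv_le_comm₀ (Real.exp_pos _) (by push_cast; positivity), inv_div]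
    refine le_trans ?_ t1
    push_cast
    rw [div_le_iff₀ (by positivity)]
    have : (1 / (q : ℝ) + 1) * (q * N) = N + q * N := by field_simp
    linarith
  have p4 : Real.exp (-(2 ^ k * N)) ≤ ((q * N : ℕ) / ((q * N : ℕ) + r) : ℝ) ^ m := by
    refine le_trans ?_ (pow_le_pow_left₀ (Real.exp_pos _).le p3 m)
    rw [← Real.exp_nat_mul, Real.exp_le_exp]
    have : (m : ℝ) * (1 / q) ≤ 2 ^ k * N := by
      rw [mul_one_div, div_le_iff₀ hq0]
      push_cast at hmK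
      nlinarith
    linarith
  have p5 : δ ≤ pw k (q * N + r) m := by
    refine le_trans ?_ p2
    rw [hδ]
    exact mul_le_mul p4 (by linarith) (by norm_num) (le_trans (Real.exp_pos _).le p4)
  have h := mu_ge_of_pw k (q * N + r) m hk (by omega) (by
      have : m < 2 ^ k * (q * N) := by exact_mod_cast hmK
      exact this.trans_le (Nat.mul_le_mul_left _ (by omega))) δ (C0 k / δ + 1) hδ0 (by positivity) (by
      have : C0 k = δ * (C0 k / δ) := by field_simp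
      have h0 : 0 < C0 k / δ := by positivity
      conv_lhs => rw [this]
      gcongr
      nlinarith) p5
  linarith

lemma tendsto_w : Tendsto w atTop atTop :=
  (tendsto_rpow_atTop (by norm_num)).comp tendsto_natCast_atTop_atTop

lemma rho_nonneg (k n : ℕ) : 0 ≤ rho k n := div_nonneg (mu_nonneg _ _) (Nat.cast_nonneg _)

lemma rho_le (k n : ℕ) : rho k n ≤ 2 ^ k := by
  rcases Nat.eq_zero_or_pos n with rfl | h
  · simp [rho]
  · rw [rho, div_le_iff₀ (Nat.cast_pos.2 h)]; exact mu_le k h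

lemma eventually_rho_ge (k N : ℕ) (hk : 3 ≤ k) (hN : 1 ≤ N) (ε : ℝ) (hε : 0 < ε) :
    ∀ᶠ n in atTop, rho k N - 17 * C1 k / w N - ε ≤ rho k n := by
  obtain ⟨E, hE0, hE⟩ := rem_step k N hk hN
  have t1 : ∀ᶠ n in atTop, E / w n < ε / 2 :=
    (tendsto_const_nhds.div_atTop tendsto_w).eventually (gt_mem_nhds (by positivity))
  have t2 : ∀ᶠ n : ℕ in atTop, 2 ^ k * (N : ℝ) / n < ε / 2 :=
    (tendsto_const_nhds.div_atTop tendsto_natCast_atTop_atTop).eventually (gt_mem_nhds (by positivity))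
  filter_upwards [t1, t2, eventually_ge_atTop (N + 1)] with n h1 h2 h3
  obtain ⟨q, r, rfl, hq, hr, hrN⟩ : ∃ q r, n = q * N + r ∧ 1 ≤ q ∧ 1 ≤ r ∧ r ≤ N := by
    refine ⟨(n - 1) / N, (n - 1) % N + 1, ?_, ?_, by omega, Nat.mod_lt _ hN⟩
    · have := Nat.div_add_mod' (n - 1) N
      omega
    · exact (Nat.le_div_iff_mul_le hN).2 (by omega)
  have a1 := hE q r hq hr hrN
  have a2 := chain' k N hk hN q hq
  have hw := one_le_w (n := q * N + r) (by omega)
  have hn0 : (0 : ℝ) < (q * N + r : ℕ) := Nat.cast_pos.2 (by omega)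
  have e : E * w (q * N + r) ^ 5 = E / w (q * N + r) * (q * N + r : ℕ) := by
    rw [← w_pow (q * N + r)]; field_simp
  rw [div_lt_iff₀ hn0] at h2
  have a3 : E / w (q * N + r) * (q * N + r : ℕ) ≤ ε / 2 * (q * N + r : ℕ) := by gcongr
  have a4 : rho k N - 17 * C1 k / w N ≤ 2 ^ k := by
    have := rho_le k N
    have hC := C1_pos hk
    have := w_nonneg N
    have : 0 ≤ 17 * C1 k / w N := by positivity
    linarith
  have a5 : (rho k N - 17 * C1 k / w N) * r ≤ 2 ^ k * N := by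
    have t2 : (r : ℝ) ≤ N := Nat.cast_le.2 hrN
    calc _ ≤ 2 ^ k * (r : ℝ) := by gcongr
      _ ≤ _ := by gcongr
  rw [rho.eq_def k (q * N + r), le_div_iff₀ hn0]
  have a6 : ((q * N + r : ℕ) : ℝ) = (q * N : ℕ) + r := by push_cast; ring
  generalize rho k N - 17 * C1 k / w N = y at *
  have a7 : y * ((q * N + r : ℕ) : ℝ) = y * (q * N : ℕ) + y * r := by rw [a6]; ring
  nlinarith

lemma rho_tendsto (k : ℕ) (hk : 3 ≤ k) : ∃ α, Tendsto (rho k) atTop (𝓝 α) := by
  have hb1 : IsBoundedUnder (· ≤ ·) atTop (rho k) := isBoundedUnder_of ⟨_, rho_le k⟩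
  have hb2 : IsBoundedUnder (· ≥ ·) atTop (rho k) := isBoundedUnder_of ⟨0, rho_nonneg k⟩
  refine ⟨limsup (rho k) atTop, tendsto_order.2 ⟨fun a ha => ?_, fun a ha => ?_⟩⟩
  · obtain ⟨ε, hε, hε'⟩ : ∃ ε > 0, a + 3 * ε < limsup (rho k) atTop :=
      ⟨(limsup (rho k) atTop - a) / 4, by linarith, by linarith⟩
    have f1 := frequently_lt_of_lt_limsup hb2.isCoboundedUnder_le hε'
    have t1 : ∀ᶠ n in atTop, 17 * C1 k / w n < ε :=
      (tendsto_const_nhds.div_atTop tendsto_w).eventually (gt_mem_nhds hε)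
    obtain ⟨N, h1, h2, h3⟩ := (f1.and_eventually (t1.and (eventually_ge_atTop 1))).exists
    filter_upwards [eventually_rho_ge k N hk h3 ε hε] with n hn
    linarith
  · exact eventually_lt_of_limsup_lt ha hb1

end Vale.Agent.P170
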