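import Mathlib

open Finset

namespace Vale.Agent.P170

variable {Ω : Type} {ι κ : Type} [Fintype ι] [Fintype κ]

/-- averaging operator: intersect the current set with a uniformly random member of a family -/
noncomputable def U (a : ι → Set Ω) : Module.End ℝ (Set Ω → ℝ) where
  toFun f S := (∑ i, f (S ∩ a i)) / Fintype.card ι
  map_add' f g := by
    funext S
    simp [Finset.sum_add_distrib, add_div]
  map_smul' c f := by
    funext S
    simp [← Finset.mul_sum, mul_div_assoc]

lemma U_apply (a : ι → Set Ω) (f : Set Ω → ℝ) (S : Set Ω) :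
    U a f S = (∑ i, f (S ∩ a i)) / Fintype.card ι := rfl

lemma U_comm (a : ι → Set Ω) (b : κ → Set Ω) : Commute (U a) (U b) := by
  ext f S
  simp only [Module.End.mul_apply, U_apply, ← Finset.sum_div]
  rw [div_div, div_div, mul_comm (Fintype.card ι : ℝ), Finset.sum_comm]
  congr 1
  refine Finset.sum_congr rfl fun j _ => Finset.sum_congr rfl fun i _ => ?_
  rw [Set.inter_right_comm]

/-- local positivity -/
def Loc (T : Module.End ℝ (Set Ω → ℝ)) : Prop :=
  ∀ f S, (∀ S' ⊆ S, 0 ≤ f S') → 0 ≤ T f S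

lemma Loc_U (a : ι → Set Ω) : Loc (U a) := by
  intro f S h
  rw [U_apply]
  exact div_nonneg (Finset.sum_nonneg fun i _ => h _ Set.inter_subset_left) (Nat.cast_nonneg _)

lemma Loc.mul {T T' : Module.End ℝ (Set Ω → ℝ)} (h : Loc T) (h' : Loc T') : Loc (T * T') := by
  intro f S hf
  exact h _ _ fun S' hS' => h' _ _ fun S'' h'' => hf _ (h''.trans hS')

lemma Loc_one : Loc (1 : Module.End ℝ (Set Ω → ℝ)) := fun _ S hf => hf S subset_rfl

lemma Loc.pow {T : Module.End ℝ (Set Ω → ℝ)} (h : Loc T) (t : ℕ) : Loc (T ^ t) := by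
  induction t with
  | zero => simpa using Loc_one
  | succ t ih => rw [pow_succ]; exact ih.mul h

lemma Loc.add {T T' : Module.End ℝ (Set Ω → ℝ)} (h : Loc T) (h' : Loc T') : Loc (T + T') := by
  intro f S hf
  exact add_nonneg (h f S hf) (h' f S hf)

lemma Loc.smul {T : Module.End ℝ (Set Ω → ℝ)} (h : Loc T) {c : ℝ} (hc : 0 ≤ c) : Loc (c • T) := by
  intro f S hf
  exact mul_nonneg hc (h f S hf)

lemma Loc.mono {T : Module.End ℝ (Set Ω → ℝ)} (h : Loc T) {f g : Set Ω → ℝ} {S : Set Ω}
    (hfg : ∀ S' ⊆ S, f S' ≤ g S') : T f S ≤ T g S := by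
  have := h (g - f) S fun S' hS' => sub_nonneg.2 (hfg S' hS')
  rw [map_sub] at this
  exact sub_nonneg.1 this

lemma U_const [Nonempty ι] (a : ι → Set Ω) (c : ℝ) : U a (fun _ => c) = fun _ => c := by
  funext S
  have : (Fintype.card ι : ℝ) ≠ 0 := Nat.cast_ne_zero.2 Fintype.card_ne_zero
  simp [U_apply]

lemma U_pow_const [Nonempty ι] (a : ι → Set Ω) (c : ℝ) (t : ℕ) :
    (U a ^ t) (fun _ => c) = fun _ => c := by
  induction t with
  | zero => simp
  | succ t ih => rw [pow_succ, Module.End.mul_apply, U_const, ih]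

lemma U_sq_le [Nonempty ι] (a : ι → Set Ω) (f : Set Ω → ℝ) (S : Set Ω) :
    (U a f S) ^ 2 ≤ U a (fun S => f S ^ 2) S := by
  have hc : (0 : ℝ) < Fintype.card ι := Nat.cast_pos.2 Fintype.card_pos
  rw [U_apply, U_apply, div_pow, div_le_div_iff₀ (by positivity) hc]
  have := sq_sum_le_card_mul_sum_sq (s := (Finset.univ : Finset ι)) (f := fun i => f (S ∩ a i))
  rw [Finset.card_univ] at this
  nlinarith

lemma U_pow_inter (a : ι → Set Ω) (t : ℕ) (f : Set Ω → ℝ) (A S : Set Ω) :
    (U a ^ t) f (S ∩ A) = (U a ^ t) (fun S' => f (S' ∩ A)) S := by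
  induction t generalizing S with
  | zero => simp
  | succ t ih =>
    rw [pow_succ', Module.End.mul_apply, Module.End.mul_apply, U_apply, U_apply]
    congr 1
    refine Finset.sum_congr rfl fun i _ => ?_
    rw [Set.inter_right_comm, ih]

lemma U_monotone (a : ι → Set Ω) {f : Set Ω → ℝ} (hf : Monotone f) : Monotone (U a f) := by
  intro S S' h
  rw [U_apply, U_apply]
  gcongr with i
  exact hf (Set.inter_subset_inter_left _ h)

lemma U_pow_monotone (a : ι → Set Ω) {f : Set Ω → ℝ} (hf : Monotone f) (t : ℕ) :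
    Monotone ((U a ^ t) f) := by
  induction t with
  | zero => simpa using hf
  | succ t ih => rw [pow_succ', Module.End.mul_apply]; exact U_monotone a ih

open Classical in
/-- indicator of nonemptiness -/
noncomputable def ne (S : Set Ω) : ℝ := if S.Nonempty then 1 else 0

lemma ne_nonneg (S : Set Ω) : 0 ≤ ne S := by unfold ne; split_ifs <;> norm_num
lemma ne_le_one (S : Set Ω) : ne S ≤ 1 := by unfold ne; split_ifs <;> norm_num
lemma ne_empty : ne (∅ : Set Ω) = 0 := by simp [ne]
lemma ne_of_nonempty {S : Set Ω} (h : S.Nonempty) : ne S = 1 := by simp [ne, h]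
lemma ne_monotone : Monotone (ne : Set Ω → ℝ) := by
  intro S S' h
  unfold ne
  by_cases hS : S.Nonempty
  · simp [hS, hS.mono h]
  · simp only [hS, if_false]; split_ifs <;> norm_num

lemma U_ne_le [Nonempty ι] (a : ι → Set Ω) (S : Set Ω) : U a ne S ≤ ne S := by
  have h1 := (Loc_U a).mono (f := ne) (g := fun _ => ne S) (S := S) fun S' h => ne_monotone h
  rwa [U_const] at h1

lemma U_pow_ne_nonneg (a : ι → Set Ω) (t : ℕ) (S : Set Ω) : 0 ≤ (U a ^ t) ne S :=
  (Loc_U a).pow t _ _ fun S' _ => ne_nonneg S'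

lemma U_pow_ne_le [Nonempty ι] (a : ι → Set Ω) (t : ℕ) (S : Set Ω) : (U a ^ t) ne S ≤ ne S := by
  have h1 := ((Loc_U a).pow t).mono (f := ne) (g := fun _ => ne S) (S := S) fun S' h => ne_monotone h
  rwa [U_pow_const] at h1

lemma U_pow_ne_antitone [Nonempty ι] (a : ι → Set Ω) (S : Set Ω) :
    Antitone fun t => (U a ^ t) ne S := by
  refine antitone_nat_of_succ_le fun t => ?_
  rw [pow_succ, Module.End.mul_apply]
  exact ((Loc_U a).pow t).mono fun S' _ => U_ne_le a S'

/-- transport along a map of the underlying spaces -/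
lemma U_pow_ne_image {Ω' : Type} (π : Ω → Ω') (a : ι → Set Ω') (t : ℕ) (S : Set Ω) :
    (U (fun i => π ⁻¹' a i) ^ t) ne S = (U a ^ t) ne (π '' S) := by
  induction t generalizing S with
  | zero =>
    simp only [pow_zero, Module.End.one_apply]
    by_cases h : S.Nonempty
    · rw [ne_of_nonempty h, ne_of_nonempty (h.image π)]
    · rw [Set.not_nonempty_iff_eq_empty.1 h, Set.image_empty, ne_empty, ne_empty]
  | succ t ih =>
    rw [pow_succ', pow_succ', Module.End.mul_apply, Module.End.mul_apply, U_apply, U_apply]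
    congr 1
    refine Finset.sum_congr rfl fun i _ => ?_
    rw [ih, Set.image_inter_preimage]

/-- comparison of powers of commuting positive operators -/
lemma pow_ne_le_pow_ne {T T' : Module.End ℝ (Set Ω → ℝ)} (h : Loc T) (h' : Loc T')
    (hc : Commute T T') (hle : ∀ S, T ne S ≤ T' ne S) (t : ℕ) (S : Set Ω) :
    (T ^ t) ne S ≤ (T' ^ t) ne S := by
  induction t generalizing S with
  | zero => simp
  | succ t ih =>
    calc (T ^ (t + 1)) ne S = T ((T ^ t) ne) S := by rw [pow_succ', Module.End.mul_apply]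
      _ ≤ T ((T' ^ t) ne) S := h.mono fun S' _ => ih S'
      _ = (T' ^ t) (T ne) S := by
          rw [← Module.End.mul_apply, (hc.pow_right t).eq, Module.End.mul_apply]
      _ ≤ (T' ^ t) (T' ne) S := (h'.pow t).mono fun S' _ => hle S'
      _ = (T' ^ (t + 1)) ne S := by rw [pow_succ, Module.End.mul_apply]

/-- explicit product formula -/
lemma U_pow_apply (a : ι → Set Ω) (m : ℕ) (f : Set Ω → ℝ) (S : Set Ω) :
    (U a ^ m) f S = (∑ F : Fin m → ι, f (S ∩ ⋂ j, a (F j))) / (Fintype.card ι : ℝ) ^ m := by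
  classical
  induction m generalizing S with
  | zero => simp
  | succ m ih =>
    rw [pow_succ', Module.End.mul_apply, U_apply]
    simp only [ih, ← Finset.sum_div]
    rw [div_div, ← pow_succ]
    congr 1
    rw [← Fintype.sum_prod_type']
    refine Fintype.sum_equiv (Fin.consEquiv fun _ => ι) _ _ ?_
    rintro ⟨i, F⟩
    congr 1
    ext x
    simp [Fin.consEquiv, Fin.forall_fin_succ, and_assoc]

end Vale.Agent.P170
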