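import Vale.Agent.P170.Bounds
import Vale.Agent.P170.Defs

open Finset Filter Topology

namespace Vale.Agent.P170

lemma fiber_card {α : Type} [Fintype α] [DecidableEq α] (k : ℕ) (C : Finset α) (hC : #C = k) :
    #{t : Fin k → α | univ.image t = C} = k.factorial := by
  have h1 : #(univ : Finset (Fin k ↪ C)) = k.factorial := by
    rw [Finset.card_univ, Fintype.card_embedding_eq, Fintype.card_coe, hC, Fintype.card_fin,
      Nat.descFactorial_self]
  rw [← h1]
  symm
  refine Finset.card_bij (fun e _ => fun i => (e i : α)) ?_ ?_ ?_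
  · intro e _
    rw [Finset.mem_filter]
    refine ⟨Finset.mem_univ _, Finset.eq_of_subset_of_card_le ?_ ?_⟩
    · intro x hx
      obtain ⟨i, -, rfl⟩ := Finset.mem_image.1 hx
      exact (e i).2
    · rw [Finset.card_image_of_injective _ (f := fun i => (e i : α))
        (Subtype.val_injective.comp e.injective), hC]
      simp
  · intro e _ e' _ h
    ext i
    exact congrFun h i
  · intro t ht
    have ht' := (Finset.mem_filter.1 ht).2
    have hinj : Function.Injective t := by
      have : #(univ.image t) = #(univ : Finset (Fin k)) := by rw [ht', hC]; simp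
      simpa using Finset.injOn_of_card_image_eq this
    refine ⟨⟨fun i => ⟨t i, ht' ▸ Finset.mem_image_of_mem t (Finset.mem_univ i)⟩, ?_⟩,
      Finset.mem_univ _, rfl⟩
    intro i j hij
    exact hinj (congrArg Subtype.val hij)

lemma card_proper_ge (n k : ℕ) : n.descFactorial k * 2 ^ k ≤ k.factorial * #(ProperClause n k) := by
  have h1 : #(univ : Finset ((Fin k ↪ Fin n) × (Fin k → Bool))) = n.descFactorial k * 2 ^ k := by
    simp [Fintype.card_embedding_eq]
  rw [← h1]
  have hinj : Function.Injective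
      fun (p : (Fin k ↪ Fin n) × (Fin k → Bool)) => fun i => (p.1 i, p.2 i) := by
    rintro ⟨e, b⟩ ⟨e', b'⟩ h
    refine Prod.ext ?_ ?_
    · ext i; exact congrArg (fun x => (x.1 : ℕ)) (congrFun h i)
    · funext i; exact congrArg Prod.snd (congrFun h i)
  rw [← Finset.card_image_of_injective _ hinj]
  refine Finset.card_le_mul_card_image_of_maps_to (f := fun t => univ.image t) ?_ _ ?_
  · intro t ht
    obtain ⟨⟨e, b⟩, -, rfl⟩ := Finset.mem_image.1 ht
    rw [ProperClause, Finset.mem_filter]
    refine ⟨Finset.mem_univ _, ?_, ?_⟩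
    · rw [Finset.card_image_of_injective]
      · simp
      · intro i j hij; exact e.injective (congrArg Prod.fst hij)
    · rw [Finset.image_image, Finset.card_image_of_injective]
      · simp
      · exact e.injective
  · intro C hC
    rw [← fiber_card k C (Finset.mem_filter.1 hC).2.1]
    exact Finset.card_le_card (Finset.filter_subset_filter _ (Finset.subset_univ _))

lemma card_event_le (n k m : ℕ) (E : (Fin m → Finset (Fin n × Bool)) → Prop) [DecidablePred E] :
    k.factorial ^ m * #((Fintype.piFinset fun _ : Fin m => ProperClause n k).filter E)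
      ≤ #{F : Fin m → Fin k → Fin n × Bool | E fun j => univ.image (F j)} := by
  set t := (Fintype.piFinset fun _ : Fin m => ProperClause n k).filter E with ht
  refine le_trans (Finset.mul_card_image_le_card_of_maps_to
    (s := {F : Fin m → Fin k → Fin n × Bool | (fun j => univ.image (F j)) ∈ t})
    (f := fun F j => univ.image (F j)) (fun F hF => (Finset.mem_filter.1 hF).2) _ ?_)
    (Finset.card_le_card ?_)
  · intro G hG
    have hG' := Fintype.mem_piFinset.1 (Finset.mem_filter.1 hG).1
    have e : #(Fintype.piFinset fun j => ({t : Fin k → Fin n × Bool | univ.image t = G j} : Finset _))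
        = k.factorial ^ m := by
      rw [Fintype.card_piFinset, Finset.prod_congr rfl
        fun j _ => fiber_card k (G j) (Finset.mem_filter.1 (hG' j)).2.1]
      simp
    rw [← e]
    refine Finset.card_le_card fun F hF => ?_
    have : (fun j => univ.image (F j)) = G :=
      funext fun j => (Finset.mem_filter.1 (Fintype.mem_piFinset.1 hF j)).2
    simp only [Finset.mem_filter, Finset.mem_univ, true_and]
    exact ⟨this ▸ hG, this⟩
  · intro F hF
    simp only [Finset.mem_filter, Finset.mem_univ, true_and, ht] at hF ⊢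
    exact hF.2

lemma ratio_bound (n k m : ℕ) (c : ℝ) (hk : 1 ≤ k) (hn : 2 * k ≤ n) (hm : (m : ℝ) ≤ c * n) :
    (Fintype.card (Fin k → Fin n × Bool) : ℝ) ^ m
      ≤ Real.exp (2 * k ^ 2 * c) * (k.factorial * #(ProperClause n k) : ℝ) ^ m := by
  have hk0 : (0 : ℝ) < k := Nat.cast_pos.2 hk
  have hn' : 2 * (k : ℝ) ≤ n := by exact_mod_cast hn
  have hn0 : (0 : ℝ) < n := by linarith
  have h1 : ((n - k : ℝ) ^ k * 2 ^ k) ≤ k.factorial * #(ProperClause n k) := by
    have a1 : (n - k) ^ k * 2 ^ k ≤ k.factorial * #(ProperClause n k) := by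
      refine le_trans (Nat.mul_le_mul_right _ ?_) (card_proper_ge n k)
      exact le_trans (Nat.pow_le_pow_left (by omega) k) (Nat.pow_sub_le_descFactorial n k)
    have a2 : (((n - k) ^ k * 2 ^ k : ℕ) : ℝ) ≤ ((k.factorial * #(ProperClause n k) : ℕ) : ℝ) :=
      Nat.cast_le.2 a1
    push_cast [Nat.cast_sub (show k ≤ n by omega)] at a2
    exact a2
  have h2 : (n : ℝ) ≤ Real.exp (2 * k / n) * (n - k) := by
    have := Real.add_one_le_exp (2 * k / n : ℝ)
    refine le_trans ?_ (mul_le_mul_of_nonneg_right this (by linarith))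
    have e : (2 * k / n + 1 : ℝ) * (n - k) = n + k * (n - 2 * k) / n := by field_simp; ring
    rw [e]
    have : 0 ≤ (k : ℝ) * (n - 2 * k) / n := div_nonneg (mul_nonneg hk0.le (by linarith)) hn0.le
    linarith
  have h3 : (Fintype.card (Fin k → Fin n × Bool) : ℝ)
      ≤ Real.exp (2 * k ^ 2 / n) * (k.factorial * #(ProperClause n k)) := by
    refine le_trans ?_ (mul_le_mul_of_nonneg_left h1 (Real.exp_pos _).le)
    have e : Real.exp (2 * k ^ 2 / n) = Real.exp (2 * k / n) ^ k := by
      rw [← Real.exp_nat_mul]; congr 1; ring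
    simp only [Fintype.card_pi, Fintype.card_prod, Fintype.card_fin, Fintype.card_bool,
      Finset.prod_const, Finset.card_univ]
    push_cast
    rw [e, ← mul_pow, ← mul_pow]
    refine pow_le_pow_left₀ (by positivity) ?_ k
    linarith
  refine (pow_le_pow_left₀ (Nat.cast_nonneg _) h3 m).trans ?_
  rw [mul_pow, ← Real.exp_nat_mul]
  refine mul_le_mul_of_nonneg_right (Real.exp_le_exp.2 ?_) (by positivity)
  calc (m : ℝ) * (2 * k ^ 2 / n) ≤ c * n * (2 * k ^ 2 / n) := by gcongr
    _ = _ := by field_simp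

lemma proper_pos (n k : ℕ) (hn : k ≤ n) : 0 < #(ProperClause n k) := by
  have h := card_proper_ge n k
  have h1 : 0 < n.descFactorial k * 2 ^ k :=
    Nat.mul_pos (Nat.descFactorial_pos.2 hn) (Nat.two_pow_pos k)
  exact Nat.pos_of_mul_pos_left (h1.trans_le h)

lemma event_le (n k m : ℕ) (c : ℝ) (hk : 1 ≤ k) (hn : 2 * k ≤ n) (hm : (m : ℝ) ≤ c * n)
    (E : (Fin m → Finset (Fin n × Bool)) → Prop) [DecidablePred E] :
    (#((Fintype.piFinset fun _ : Fin m => ProperClause n k).filter E) : ℝ) /
      (#(ProperClause n k) : ℝ) ^ m ≤ Real.exp (2 * k ^ 2 * c) *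
        ((#{F : Fin m → Fin k → Fin n × Bool | E fun j => univ.image (F j)} : ℝ) /
          (Fintype.card (Fin k → Fin n × Bool) : ℝ) ^ m) := by
  haveI : Nonempty (Fin n) := ⟨⟨0, by omega⟩⟩
  have hc : (0 : ℝ) < (Fintype.card (Fin k → Fin n × Bool) : ℝ) ^ m :=
    pow_pos (Nat.cast_pos.2 Fintype.card_pos) m
  have hp : (0 : ℝ) < #(ProperClause n k) := Nat.cast_pos.2 (proper_pos n k (by omega))
  have h1 := ratio_bound n k m c hk hn hm
  have h2 : ((k.factorial : ℝ) ^ m *
      #((Fintype.piFinset fun _ : Fin m => ProperClause n k).filter E))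
      ≤ #{F : Fin m → Fin k → Fin n × Bool | E fun j => univ.image (F j)} := by
    exact_mod_cast card_event_le n k m E
  rw [← mul_div_assoc, div_le_div_iff₀ (by positivity) hc]
  calc _ ≤ (#((Fintype.piFinset fun _ : Fin m => ProperClause n k).filter E) : ℝ) *
        (Real.exp (2 * k ^ 2 * c) * (k.factorial * #(ProperClause n k) : ℝ) ^ m) := by gcongr
    _ = Real.exp (2 * k ^ 2 * c) * ((k.factorial : ℝ) ^ m *
      #((Fintype.piFinset fun _ : Fin m => ProperClause n k).filter E))
        * (#(ProperClause n k) : ℝ) ^ m := by rw [mul_pow]; ring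
    _ ≤ _ := by gcongr

open Classical in
lemma pw_eq (k n m : ℕ) : pw k n m =
    (#{F : Fin m → Fin k → Fin n × Bool | Sat fun j => univ.image (F j)} : ℝ) /
      (Fintype.card (Fin k → Fin n × Bool) : ℝ) ^ m := by
  rw [pw, U_pow_apply, Finset.card_filter]
  push_cast
  congr 1
  refine Finset.sum_congr rfl fun F _ => ?_
  unfold ne
  refine if_congr ?_ rfl rfl
  simp [Sat, cl, lit, Set.Nonempty]

lemma P_le (n k m : ℕ) (c : ℝ) (hk : 1 ≤ k) (hn : 2 * k ≤ n) (hm : (m : ℝ) ≤ c * n) :
    P k n m ≤ Real.exp (2 * k ^ 2 * c) * pw k n m := by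
  classical
  rw [pw_eq]
  exact event_le n k m c hk hn hm Sat

lemma one_sub_P_eq (n k m : ℕ) (hn : k ≤ n) [DecidablePred fun F : Fin m → Finset (Fin n × Bool) => ¬ Sat F] :
    1 - P k n m = (#((Fintype.piFinset fun _ : Fin m => ProperClause n k).filter fun F => ¬ Sat F) : ℝ) /
      (#(ProperClause n k) : ℝ) ^ m := by
  classical
  have hp : (0 : ℝ) < #(ProperClause n k) := Nat.cast_pos.2 (proper_pos n k hn)
  have h := Finset.card_filter_add_card_filter_not (s := Fintype.piFinset fun _ : Fin m => ProperClause n k)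
    Sat
  rw [Fintype.card_piFinset, Finset.prod_const, Finset.card_univ, Fintype.card_fin] at h
  have h' := congrArg (Nat.cast : ℕ → ℝ) h
  push_cast at h'
  rw [P, eq_div_iff (by positivity), sub_mul, div_mul_cancel₀ _ (by positivity), one_mul, ← h']
  convert add_sub_cancel_left _ _

lemma one_sub_P_le (n k m : ℕ) (c : ℝ) (hk : 1 ≤ k) (hn : 2 * k ≤ n) (hm : (m : ℝ) ≤ c * n) :
    1 - P k n m ≤ Real.exp (2 * k ^ 2 * c) * (1 - pw k n m) := by
  classical
  haveI : Nonempty (Fin n) := ⟨⟨0, by omega⟩⟩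
  have hc : (0 : ℝ) < (Fintype.card (Fin k → Fin n × Bool) : ℝ) ^ m :=
    pow_pos (Nat.cast_pos.2 Fintype.card_pos) m
  rw [one_sub_P_eq n k m (by omega)]
  refine (event_le n k m c hk hn hm fun F => ¬ Sat F).trans (le_of_eq ?_)
  congr 1
  have h := Finset.card_filter_add_card_filter_not (s := (univ : Finset (Fin m → Fin k → Fin n × Bool)))
    fun F => Sat fun j => univ.image (F j)
  rw [Finset.card_univ, Fintype.card_pi, Finset.prod_const, Finset.card_univ, Fintype.card_fin] at h
  have h' := congrArg (Nat.cast : ℕ → ℝ) h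
  push_cast at h'
  rw [pw_eq, div_eq_iff hc.ne', sub_mul, div_mul_cancel₀ _ hc.ne', one_mul, ← h']
  ring

lemma P_nonneg (k n m : ℕ) : 0 ≤ P k n m := by unfold P; positivity

lemma P_le_one (k n m : ℕ) (hn : k ≤ n) : P k n m ≤ 1 := by
  classical
  have := one_sub_P_eq n k m hn
  have h2 : 0 ≤ 1 - P k n m := by rw [this]; positivity
  linarith

theorem threshold (k : ℕ) (hk : 3 ≤ k) : ∃ α : ℝ, 0 < α ∧
    (∀ c : ℝ, 0 ≤ c → c < α → Tendsto (fun n : ℕ => P k n ⌊c * n⌋₊) atTop (𝓝 1)) ∧
    (∀ c : ℝ, α < c → Tendsto (fun n : ℕ => P k n ⌊c * n⌋₊) atTop (𝓝 0)) := by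
  obtain ⟨α, hα, h1, h2⟩ := threshold_wr k hk
  refine ⟨α, hα, fun c hc0 hc => ?_, fun c hc => ?_⟩
  · have h : Tendsto (fun n : ℕ => 1 - P k n ⌊c * n⌋₊) atTop (𝓝 0) := by
      refine squeeze_zero' (g := fun n : ℕ => Real.exp (2 * k ^ 2 * c) * (1 - pw k n ⌊c * n⌋₊)) ?_ ?_ ?_
      · filter_upwards [eventually_ge_atTop k] with n hn using sub_nonneg.2 (P_le_one k n _ hn)
      · filter_upwards [eventually_ge_atTop (2 * k)] with n hn
        exact one_sub_P_le n k _ c (by omega) hn (Nat.floor_le (by positivity))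
      · simpa using ((h1 c hc0 hc).const_sub 1).const_mul (Real.exp (2 * k ^ 2 * c))
    simpa using h.const_sub 1
  · refine squeeze_zero' (g := fun n : ℕ => Real.exp (2 * k ^ 2 * c) * pw k n ⌊c * n⌋₊)
      (Eventually.of_forall fun n => P_nonneg _ _ _) ?_ ?_
    · filter_upwards [eventually_ge_atTop (2 * k)] with n hn
      exact P_le n k _ c (by omega) hn (Nat.floor_le (mul_nonneg (by linarith) (Nat.cast_nonneg _)))
    · simpa using (h2 c hc).const_mul (Real.exp (2 * k ^ 2 * c))

end Vale.Agent.P170
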