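import Vale.Agent.P170.Op

open Finset

namespace Vale.Agent.P170

variable {Ω : Type} {ι : Type} [Fintype ι] [Nonempty ι]

/-- expected capped lifetime -/
noncomputable def V (a : ι → Set Ω) (r : ℕ) (S : Set Ω) : ℝ := ∑ t ∈ range r, (U a ^ t) ne S

/-- second moment of the capped lifetime -/
noncomputable def Q (a : ι → Set Ω) (r : ℕ) (S : Set Ω) : ℝ :=
  ∑ t ∈ range r, (2 * t + 1) * (U a ^ t) ne S

/-- kill probability -/
noncomputable def kill (a : ι → Set Ω) (S : Set Ω) : ℝ := ne S - U a ne S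

lemma U_sum (a : ι → Set Ω) (s : Finset ℕ) (f : ℕ → Set Ω → ℝ) (S : Set Ω) :
    U a (fun S' => ∑ t ∈ s, f t S') S = ∑ t ∈ s, U a (f t) S := by
  have : (fun S' => ∑ t ∈ s, f t S') = ∑ t ∈ s, f t := by
    funext S'; simp [Finset.sum_apply]
  rw [this, map_sum, Finset.sum_apply]

lemma sum_pow_succ (a : ι → Set Ω) (f : Set Ω → ℝ) (r : ℕ) (S : Set Ω) :
    ∑ t ∈ range (r + 1), (U a ^ t) f S = f S + U a (fun S' => ∑ t ∈ range r, (U a ^ t) f S') S := by
  rw [Finset.sum_range_succ', U_sum, add_comm]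
  congr 1
  refine Finset.sum_congr rfl fun t _ => ?_
  rw [pow_succ', Module.End.mul_apply]

lemma V_nonneg (a : ι → Set Ω) (r : ℕ) (S : Set Ω) : 0 ≤ V a r S :=
  Finset.sum_nonneg fun t _ => U_pow_ne_nonneg a t S

lemma V_le (a : ι → Set Ω) (r : ℕ) (S : Set Ω) : V a r S ≤ r * ne S := by
  unfold V
  calc _ ≤ ∑ _t ∈ range r, ne S := Finset.sum_le_sum fun t _ => U_pow_ne_le a t S
    _ = _ := by simp

lemma V_mono_r (a : ι → Set Ω) {r R : ℕ} (h : r ≤ R) (S : Set Ω) : V a r S ≤ V a R S :=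
  Finset.sum_le_sum_of_subset_of_nonneg (Finset.range_mono h) fun t _ _ => U_pow_ne_nonneg a t S

lemma V_succ (a : ι → Set Ω) (r : ℕ) (S : Set Ω) : V a (r + 1) S = ne S + U a (V a r) S :=
  sum_pow_succ a ne r S

lemma Q_succ (a : ι → Set Ω) (r : ℕ) (S : Set Ω) :
    Q a (r + 1) S = ne S + 2 * U a (V a r) S + U a (Q a r) S := by
  unfold Q V
  rw [Finset.sum_range_succ', U_sum, U_sum, Finset.mul_sum, add_assoc, ← Finset.sum_add_distrib,
    add_comm]
  congr 1
  · simp
  refine Finset.sum_congr rfl fun t _ => ?_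
  have : U a (fun S' => (2 * (t : ℝ) + 1) * (U a ^ t) ne S') S
      = (2 * (t : ℝ) + 1) * U a ((U a ^ t) ne) S := by
    have h := (U a).map_smul (2 * (t : ℝ) + 1) ((U a ^ t) ne)
    exact congrFun h S
  rw [this, pow_succ', Module.End.mul_apply]
  push_cast
  ring

lemma ne_mul_U_V (a : ι → Set Ω) (r : ℕ) (S : Set Ω) : ne S * U a (V a r) S = U a (V a r) S := by
  by_cases h : S.Nonempty
  · rw [ne_of_nonempty h, one_mul]
  · rw [Set.not_nonempty_iff_eq_empty.1 h, ne_empty, zero_mul, U_apply]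
    have : ∀ i, V a r (∅ ∩ a i) = 0 := fun i => by
      have h1 := V_le a r (∅ ∩ a i)
      have h2 := V_nonneg a r (∅ ∩ a i)
      rw [Set.empty_inter, ne_empty, mul_zero] at h1
      rw [Set.empty_inter] at h2 ⊢
      linarith
    simp only [this]
    simp

lemma ne_sq (S : Set Ω) : ne S ^ 2 = ne S := by unfold ne; split_ifs <;> norm_num

/-- variance about an arbitrary centre -/
lemma U_var_le (a : ι → Set Ω) (f : Set Ω → ℝ) (S : Set Ω) (c : ℝ) :
    U a (fun S => f S ^ 2) S - (U a f S) ^ 2 ≤ (∑ i, (c - f (S ∩ a i)) ^ 2) / Fintype.card ι := by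
  have hc : (0 : ℝ) < Fintype.card ι := Nat.cast_pos.2 Fintype.card_pos
  have h1 : (∑ i, (c - f (S ∩ a i)) ^ 2) / Fintype.card ι
      = c ^ 2 - 2 * c * U a f S + U a (fun S => f S ^ 2) S := by
    rw [U_apply, U_apply]
    have : ∀ i, (c - f (S ∩ a i)) ^ 2 = c ^ 2 - 2 * c * f (S ∩ a i) + f (S ∩ a i) ^ 2 :=
      fun i => by ring
    simp only [this, Finset.sum_add_distrib, Finset.sum_sub_distrib, ← Finset.mul_sum,
      Finset.sum_const, Finset.card_univ, nsmul_eq_mul]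
    field_simp
  rw [h1]
  nlinarith [sq_nonneg (c - U a f S)]

/-- second moment bound for the delay caused by one extra constraint -/
lemma delay_sq_le (a : ι → Set Ω) (A : Set Ω) (R r : ℕ) (hr : r ≤ R) (S : Set Ω) :
    (V a r S - V a r (S ∩ A)) ^ 2 ≤
      2 * ∑ s ∈ range r, (U a ^ s) (fun S' => (ne S' - ne (S' ∩ A)) * V a R S') S := by
  set d : Set Ω → ℝ := fun S' => ne S' - ne (S' ∩ A) with hd
  have hd0 : ∀ S', 0 ≤ d S' := fun S' => sub_nonneg.2 (ne_monotone Set.inter_subset_left)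
  have hd1 : ∀ S', d S' ≤ ne S' := fun S' => by
    have := ne_nonneg (S' ∩ A); simp only [hd]; linarith
  have hdd : ∀ S', d S' ^ 2 ≤ d S' := fun S' => by
    have := hd0 S'; have := hd1 S'; have := ne_le_one S'; nlinarith
  have hg : ∀ r S, V a r S - V a r (S ∩ A) = ∑ s ∈ range r, (U a ^ s) d S := by
    intro r S
    unfold V
    rw [← Finset.sum_sub_distrib]
    refine Finset.sum_congr rfl fun s _ => ?_
    rw [U_pow_inter]
    have h := (U a ^ s).map_sub ne (fun S' => ne (S' ∩ A))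
    exact (congrFun h S).symm
  rw [hg]
  induction r generalizing S with
  | zero => simp
  | succ r ih =>
    have ih' := fun S => ih (by omega) S
    have hle : ∑ s ∈ range (r + 1), (U a ^ s) d S ≤ V a R S := by
      refine le_trans ?_ (V_mono_r a hr S)
      exact Finset.sum_le_sum fun s _ => ((Loc_U a).pow s).mono fun S' _ => hd1 S'
    rw [sum_pow_succ] at hle ⊢
    rw [sum_pow_succ]
    set g : Set Ω → ℝ := fun S' => ∑ s ∈ range r, (U a ^ s) d S' with hg'
    set h : Set Ω → ℝ := fun S' => ∑ s ∈ range r,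
      (U a ^ s) (fun S' => (ne S' - ne (S' ∩ A)) * V a R S') S' with hh
    have h1 : (U a g S) ^ 2 ≤ U a (fun S => g S ^ 2) S := U_sq_le a g S
    have h2 : U a (fun S => g S ^ 2) S ≤ U a (fun S => 2 * h S) S :=
      (Loc_U a).mono fun S' _ => ih' S'
    have h3 : U a (fun S => 2 * h S) S = 2 * U a h S := congrFun ((U a).map_smul 2 h) S
    have h4 := hdd S
    have h5 := hd0 S
    have h6 : d S * (d S + U a g S) ≤ d S * V a R S := mul_le_mul_of_nonneg_left hle h5
    have h7 : 0 ≤ d S ^ 2 := sq_nonneg _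
    show (d S + U a g S) ^ 2 ≤ 2 * (d S * V a R S + U a h S)
    nlinarith

lemma avg_delay_sq_le (a : ι → Set Ω) (R r : ℕ) (hr : r ≤ R) (S : Set Ω) :
    (∑ i, (V a r S - V a r (S ∩ a i)) ^ 2) / Fintype.card ι ≤
      2 * ∑ s ∈ range R, (U a ^ s) (fun S' => kill a S' * V a R S') S := by
  have hc : (0 : ℝ) < Fintype.card ι := Nat.cast_pos.2 Fintype.card_pos
  have hk0 : ∀ S', 0 ≤ kill a S' := fun S' => sub_nonneg.2 (U_ne_le a S')
  have h1 : (∑ i, (V a r S - V a r (S ∩ a i)) ^ 2) ≤ ∑ i, 2 * ∑ s ∈ range r,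
      (U a ^ s) (fun S' => (ne S' - ne (S' ∩ a i)) * V a R S') S :=
    Finset.sum_le_sum fun i _ => delay_sq_le a (a i) R r hr S
  have h2 : ∀ s, ∑ i, (U a ^ s) (fun S' => (ne S' - ne (S' ∩ a i)) * V a R S') S
      = Fintype.card ι * (U a ^ s) (fun S' => kill a S' * V a R S') S := by
    intro s
    have e1 : (∑ i, fun S' => (ne S' - ne (S' ∩ a i)) * V a R S')
        = (Fintype.card ι : ℝ) • fun S' => kill a S' * V a R S' := by
      funext S'
      simp only [Finset.sum_apply, Pi.smul_apply, smul_eq_mul, kill, U_apply, ← Finset.sum_mul,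
        Finset.sum_sub_distrib, Finset.sum_const, Finset.card_univ, nsmul_eq_mul]
      field_simp
    have e2 := congrFun (map_sum (U a ^ s) (fun i => fun S' => (ne S' - ne (S' ∩ a i)) * V a R S')
      Finset.univ) S
    rw [e1, map_smul, Finset.sum_apply] at e2
    exact e2.symm
  rw [← Finset.mul_sum, Finset.sum_comm] at h1
  simp only [h2, ← Finset.mul_sum] at h1
  rw [div_le_iff₀ hc]
  have h3 : ∑ s ∈ range r, (U a ^ s) (fun S' => kill a S' * V a R S') S
      ≤ ∑ s ∈ range R, (U a ^ s) (fun S' => kill a S' * V a R S') S :=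
    Finset.sum_le_sum_of_subset_of_nonneg (Finset.range_mono hr) fun s _ _ =>
      (Loc_U a).pow s _ _ fun S' _ => mul_nonneg (hk0 S') (V_nonneg a R S')
  nlinarith

lemma var_le (a : ι → Set Ω) (R r : ℕ) (hr : r ≤ R) (S : Set Ω) :
    Q a r S - V a r S ^ 2 ≤ ∑ t ∈ range r, (U a ^ t)
      (fun S₁ => 2 * ∑ s ∈ range R, (U a ^ s) (fun S' => kill a S' * V a R S') S₁) S := by
  induction r generalizing S with
  | zero => simp [Q, V]
  | succ r ih =>
    have ih' := fun S => ih (by omega) S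
    rw [sum_pow_succ, Q_succ, V_succ]
    have h1 := U_var_le a (V a r) S (V a r S)
    have h2 := avg_delay_sq_le a R r (by omega) S
    have h3 := (Loc_U a).mono (S := S) fun S' _ => ih' S'
    have h4 : U a (fun S' => Q a r S' - V a r S' ^ 2) S
        = U a (Q a r) S - U a (fun S => V a r S ^ 2) S :=
      congrFun ((U a).map_sub (Q a r) (fun S => V a r S ^ 2)) S
    have h5 := ne_mul_U_V a r S
    have h6 := ne_sq S
    nlinarith

lemma sum_kill_le (a : ι → Set Ω) (R : ℕ) (S : Set Ω) :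
    ∑ s ∈ range R, (U a ^ s) (kill a) S ≤ ne S := by
  have : ∑ s ∈ range R, (U a ^ s) (kill a) S = ne S - (U a ^ R) ne S := by
    induction R with
    | zero => simp
    | succ R ih =>
      rw [Finset.sum_range_succ, ih]
      have h := congrFun ((U a ^ R).map_sub ne (U a ne)) S
      have e : kill a = ne - U a ne := rfl
      rw [e, h, pow_succ, Module.End.mul_apply]
      simp
  rw [this]
  linarith [U_pow_ne_nonneg a R S]

lemma kill_mul_ne_le (a : ι → Set Ω) {S S' : Set Ω} (h : S' ⊆ S) :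
    kill a S * ne S' ≤ kill a S' := by
  by_cases h' : S'.Nonempty
  · rw [ne_of_nonempty h', mul_one, kill, kill, ne_of_nonempty h', ne_of_nonempty (h'.mono h)]
    linarith [U_monotone a ne_monotone h]
  · rw [Set.not_nonempty_iff_eq_empty.1 h', ne_empty, mul_zero]
    exact sub_nonneg.2 (U_ne_le a _)

lemma kill_mul_V_le (a : ι → Set Ω) (R : ℕ) (S : Set Ω) : kill a S * V a R S ≤ ne S := by
  refine le_trans ?_ (sum_kill_le a R S)
  rw [V, Finset.mul_sum]
  refine Finset.sum_le_sum fun s _ => ?_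
  have h := congrFun ((U a ^ s).map_smul (kill a S) ne) S
  rw [Pi.smul_apply, smul_eq_mul] at h
  rw [← h]
  exact ((Loc_U a).pow s).mono fun S' hS' => kill_mul_ne_le a hS'

/-- final variance bound in terms of any majorant `h` of `kill * V` -/
lemma var_le_of_majorant (a : ι → Set Ω) (R : ℕ) (h : Set Ω → ℝ) (h0 : ∀ S, 0 ≤ h S)
    (hh : ∀ S, kill a S * V a R S ≤ h S) (S : Set Ω) :
    Q a R S - V a R S ^ 2 ≤ 2 * R * ∑ j ∈ range (2 * R), (U a ^ j) h S := by
  refine (var_le a R R le_rfl S).trans ?_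
  have key : ∀ t ∈ range R, (U a ^ t)
      (fun S₁ => 2 * ∑ s ∈ range R, (U a ^ s) (fun S' => kill a S' * V a R S') S₁) S
      ≤ 2 * ∑ j ∈ range (2 * R), (U a ^ j) h S := by
    intro t ht
    have ht' := Finset.mem_range.1 ht
    have e1 : (fun S₁ => 2 * ∑ s ∈ range R, (U a ^ s) h S₁) = (2 : ℝ) • ∑ s ∈ range R, (U a ^ s) h := by
      funext S₁; simp [Finset.sum_apply]
    calc _ ≤ (U a ^ t) (fun S₁ => 2 * ∑ s ∈ range R, (U a ^ s) h S₁) S := by
          refine ((Loc_U a).pow t).mono fun S₁ _ => ?_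
          refine mul_le_mul_of_nonneg_left (Finset.sum_le_sum fun s _ => ?_) (by norm_num)
          exact ((Loc_U a).pow s).mono fun S' _ => hh S'
      _ = 2 * ∑ s ∈ range R, (U a ^ (t + s)) h S := by
          rw [e1, map_smul, map_sum, Pi.smul_apply, smul_eq_mul, Finset.sum_apply]
          congr 1
          refine Finset.sum_congr rfl fun s _ => ?_
          rw [pow_add, Module.End.mul_apply]
      _ ≤ _ := by
          refine mul_le_mul_of_nonneg_left ?_ (by norm_num)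
          rw [← Finset.sum_image (s := range R) (g := fun s => t + s) (f := fun j => (U a ^ j) h S)
            (fun x _ y _ hxy => by simpa using hxy)]
          refine Finset.sum_le_sum_of_subset_of_nonneg ?_ fun j _ _ =>
            (Loc_U a).pow j _ _ fun S' _ => h0 S'
          intro j hj
          obtain ⟨s, hs, rfl⟩ := Finset.mem_image.1 hj
          have := Finset.mem_range.1 hs
          exact Finset.mem_range.2 (by omega)
  calc _ ≤ ∑ _t ∈ range R, 2 * ∑ j ∈ range (2 * R), (U a ^ j) h S := Finset.sum_le_sum key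
    _ = _ := by simp; ring

/-! Chebyshev for tail sequences -/

lemma tail_nonneg (p : ℕ → ℝ) (hp : Antitone p) (h0 : ∀ t, 0 ≤ p t) (h1 : p 0 ≤ 1)
    (φ : ℕ → ℝ) (hφ : ∀ j, 0 ≤ φ j) (R : ℕ) :
    0 ≤ φ 0 + ∑ t ∈ range R, p t * (φ (t + 1) - φ t) := by
  have key : ∀ R, p R * φ R ≤ φ 0 + ∑ t ∈ range R, p t * (φ (t + 1) - φ t) := by
    intro R
    induction R with
    | zero => simpa using mul_le_of_le_one_left (hφ 0) h1
    | succ R ih =>
      rw [Finset.sum_range_succ]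
      have := mul_le_mul_of_nonneg_right (hp (Nat.le_succ R)) (hφ (R + 1))
      nlinarith
  exact le_trans (mul_nonneg (h0 R) (hφ R)) (key R)

lemma tail_sq (p : ℕ → ℝ) (R : ℕ) (μ : ℝ) (hμ : μ = ∑ t ∈ range R, p t) :
    ((0 : ℕ) - μ) ^ 2 + ∑ t ∈ range R, p t * ((((t + 1 : ℕ) : ℝ) - μ) ^ 2 - ((t : ℝ) - μ) ^ 2)
      = ∑ t ∈ range R, (2 * t + 1) * p t - μ ^ 2 := by
  have : ∀ t : ℕ, p t * ((((t + 1 : ℕ) : ℝ) - μ) ^ 2 - ((t : ℝ) - μ) ^ 2)
      = (2 * t + 1) * p t - 2 * μ * p t := fun t => by push_cast; ring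
  simp only [this, Finset.sum_sub_distrib, ← Finset.mul_sum, ← hμ]
  push_cast
  ring

lemma cheb_lower (p : ℕ → ℝ) (hp : Antitone p) (h0 : ∀ t, 0 ≤ p t) (h1 : p 0 ≤ 1) (R m : ℕ)
    (hm : m < R) (μ : ℝ) (hμ : μ = ∑ t ∈ range R, p t) (hmμ : (m : ℝ) ≤ μ) :
    (1 - p m) * (μ - m) ^ 2 ≤ ∑ t ∈ range R, (2 * t + 1) * p t - μ ^ 2 := by
  have h := tail_nonneg p hp h0 h1
    (fun j => ((j : ℝ) - μ) ^ 2 - if j ≤ m then (μ - m) ^ 2 else 0) (fun j => by
      split_ifs with hj
      · have : (j : ℝ) ≤ m := Nat.cast_le.2 hj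
        nlinarith
      · simpa using sq_nonneg _) R
  rw [← tail_sq p R μ hμ]
  have e : ∑ t ∈ range R, p t * ((if t + 1 ≤ m then (μ - m) ^ 2 else 0)
      - (if t ≤ m then (μ - m) ^ 2 else 0)) = - (p m * (μ - m) ^ 2) := by
    rw [Finset.sum_eq_single m]
    · simp
    · intro t _ ht
      by_cases h' : t < m
      · rw [if_pos (by omega), if_pos (by omega)]; ring
      · rw [if_neg (by omega), if_neg (by omega)]; ring
    · intro h'; exact absurd (Finset.mem_range.2 hm) h'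
  have e2 : ∑ t ∈ range R, p t * (((((t + 1 : ℕ) : ℝ) - μ) ^ 2 - if t + 1 ≤ m then (μ - m) ^ 2 else 0)
      - (((t : ℝ) - μ) ^ 2 - if t ≤ m then (μ - m) ^ 2 else 0))
      = ∑ t ∈ range R, p t * ((((t + 1 : ℕ) : ℝ) - μ) ^ 2 - ((t : ℝ) - μ) ^ 2)
        - ∑ t ∈ range R, p t * ((if t + 1 ≤ m then (μ - m) ^ 2 else 0)
      - (if t ≤ m then (μ - m) ^ 2 else 0)) := by
    rw [← Finset.sum_sub_distrib]
    exact Finset.sum_congr rfl fun t _ => by ring
  rw [e2, e, if_pos (Nat.zero_le m)] at h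
  linarith

lemma cheb_upper (p : ℕ → ℝ) (hp : Antitone p) (h0 : ∀ t, 0 ≤ p t) (h1 : p 0 ≤ 1) (R m : ℕ)
    (hm : m < R) (μ : ℝ) (hμ : μ = ∑ t ∈ range R, p t) (hmμ : μ ≤ m) :
    p m * (m - μ) ^ 2 ≤ ∑ t ∈ range R, (2 * t + 1) * p t - μ ^ 2 := by
  have h := tail_nonneg p hp h0 h1
    (fun j => ((j : ℝ) - μ) ^ 2 - if j ≤ m then 0 else (m - μ) ^ 2) (fun j => by
      split_ifs with hj
      · simpa using sq_nonneg _
      · have : (m : ℝ) ≤ j := Nat.cast_le.2 (by omega)
        nlinarith) R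
  rw [← tail_sq p R μ hμ]
  have e : ∑ t ∈ range R, p t * ((if t + 1 ≤ m then 0 else (m - μ) ^ 2)
      - (if t ≤ m then 0 else (m - μ) ^ 2)) = (p m * (m - μ) ^ 2) := by
    rw [Finset.sum_eq_single m]
    · simp
    · intro t _ ht
      by_cases h' : t < m
      · rw [if_pos (by omega), if_pos (by omega)]; ring
      · rw [if_neg (by omega), if_neg (by omega)]; ring
    · intro h'; exact absurd (Finset.mem_range.2 hm) h'
  have e2 : ∑ t ∈ range R, p t * (((((t + 1 : ℕ) : ℝ) - μ) ^ 2 - if t + 1 ≤ m then 0 else (m - μ) ^ 2)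
      - (((t : ℝ) - μ) ^ 2 - if t ≤ m then 0 else (m - μ) ^ 2))
      = ∑ t ∈ range R, p t * ((((t + 1 : ℕ) : ℝ) - μ) ^ 2 - ((t : ℝ) - μ) ^ 2)
        - ∑ t ∈ range R, p t * ((if t + 1 ≤ m then 0 else (m - μ) ^ 2)
      - (if t ≤ m then 0 else (m - μ) ^ 2)) := by
    rw [← Finset.sum_sub_distrib]
    exact Finset.sum_congr rfl fun t _ => by ring
  rw [e2, e, if_pos (Nat.zero_le m)] at h
  linarith

end Vale.Agent.P170
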